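import Vale.Agent.Lib.P063Alt.Bonami

/-!
# The block level inequality and the class bound.
-/

namespace Vale.Agent.Lib.P063Alt

open Finset

variable {ι : Type*} [DecidableEq ι]

/-- Sum over subsets of a disjoint union. -/
theorem sum_powerset_union {A T : Finset ι} (hd : Disjoint A T) (F : Finset ι → ℝ) :
    ∑ S ∈ (A ∪ T).powerset, F S = ∑ a ∈ A.powerset, ∑ b ∈ T.powerset, F (a ∪ b) := by
  induction A using Finset.induction_on generalizing F with
  | empty => simp
  | insert e A he ih =>
    have hd' : Disjoint A T := (Finset.disjoint_insert_left.mp hd).2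
    have heT : e ∉ T := (Finset.disjoint_insert_left.mp hd).1
    have he' : e ∉ A ∪ T := by simp [he, heT]
    rw [Finset.insert_union, Finset.sum_powerset_insert he', Finset.sum_powerset_insert he,
      ih hd', ih hd']
    simp only [Finset.insert_union]

variable [Fintype ι]

/-- The block level inequality. -/
theorem block_level {p : ℝ} (h0 : 0 < p) (h1 : p < 1) (π : Finset ι → ℝ)
    (hπ0 : ∀ x, 0 ≤ π x) (hπ1 : ∀ x, π x ≤ 1) {A T : Finset ι} (hd : Disjoint A T) {t : ℝ}
    (ht : 0 ≤ t) (hcap : ∀ a, a ⊆ A → Ex p Aᶜ (fun y => π (a ∪ y)) ≤ t ^ 2) :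
    ∑ W ∈ T.powerset, (lam p)⁻¹ ^ W.card *
        ∑ S' ∈ A.powerset, (Ex p univ (fun x => π x * chiS p (W ∪ S') x)) ^ 2
      ≤ t * Ex p univ π := by
  have hp0 := h0.le
  have hp1 := h1.le
  set C : Finset ι := Aᶜ \ T with hC
  have hTC : Disjoint T C := Finset.disjoint_sdiff
  have hAC : Aᶜ = T ∪ C := by
    rw [hC, Finset.union_sdiff_of_subset]
    intro e he
    simp only [Finset.mem_compl]
    exact fun h => (Finset.disjoint_left.mp hd h) he
  have hATC : Disjoint A (T ∪ C) := by
    rw [← hAC]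
    exact disjoint_compl_right
  have huniv : (univ : Finset ι) = A ∪ (T ∪ C) := by
    rw [← hAC]
    exact (Finset.union_compl A).symm
  -- Fubini
  have fub : ∀ g : Finset ι → ℝ,
      Ex p univ g = Ex p A (fun a => Ex p T (fun R => Ex p C (fun c => g (a ∪ (R ∪ c))))) := by
    intro g
    rw [huniv, Ex_union p hATC]
    congr 1
    funext a
    rw [Ex_union p hTC]
  set gg : Finset ι → Finset ι → ℝ := fun a R => Ex p C (fun c => π (a ∪ (R ∪ c))) with hgg
  have hgg0 : ∀ a R, 0 ≤ gg a R := fun a R => Ex_nonneg hp0 hp1 C (fun c _ => hπ0 _)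
  have hgg1 : ∀ a R, gg a R ≤ 1 := by
    intro a R
    have : gg a R ≤ Ex p C (fun _ => 1) := Ex_mono hp0 hp1 C (fun c _ => hπ1 _)
    rwa [Ex_one] at this
  set GW : Finset ι → Finset ι → ℝ := fun W a => Ex p T (fun x => gg a x * chiS p W x) with hGW
  -- Step A
  have stepA : ∀ a, a ⊆ A →
      ∑ W ∈ T.powerset, (lam p)⁻¹ ^ W.card * GW W a ^ 2 ≤ t * Ex p T (gg a) := by
    intro a ha
    apply fibre_level h0 h1 T (gg a) (fun R _ => hgg0 a R) (fun R _ => hgg1 a R) ht
    have := hcap a ha
    rw [hAC, Ex_union p hTC] at this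
    exact this
  -- Step B
  have stepB : ∀ W, W ⊆ T → ∀ S', S' ⊆ A →
      Ex p univ (fun x => π x * chiS p (W ∪ S') x) = Ex p A (fun a => GW W a * chiS p S' a) := by
    intro W hW S' hS'
    rw [fub]
    apply Ex_congr
    intro a ha
    simp only [hGW, hgg]
    rw [← Ex_mul_const]
    apply Ex_congr
    intro R hR
    rw [mul_assoc, ← Ex_mul_const]
    apply Ex_congr
    intro c hc
    have hWS : Disjoint W S' :=
      Finset.disjoint_of_subset_left hW (Finset.disjoint_of_subset_right hS' hd.symm)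
    have hcC : ∀ e, e ∈ c → e ∉ A ∧ e ∉ T := by
      intro e he
      have := hc he
      simp only [hC, Finset.mem_sdiff, Finset.mem_compl] at this
      exact this
    have hchi : chiS p (W ∪ S') (a ∪ (R ∪ c)) = chiS p W R * chiS p S' a := by
      rw [chiS_union p hWS]
      congr 1
      · apply chiS_congr
        intro e he
        have heT : e ∈ T := hW he
        have h1 : e ∉ a := fun h => Finset.disjoint_left.mp hd (ha h) heT
        have h2 : e ∉ c := fun h => (hcC e h).2 heT
        simp [h1, h2]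
      · apply chiS_congr
        intro e he
        have heA : e ∈ A := hS' he
        have h1 : e ∉ R := fun h => Finset.disjoint_left.mp hd heA (hR h)
        have h2 : e ∉ c := fun h => (hcC e h).1 heA
        simp [h1, h2]
    rw [hchi]
  -- Step C: Parseval on A
  have stepC : ∀ W, W ⊆ T → ∑ S' ∈ A.powerset, (Ex p univ (fun x => π x * chiS p (W ∪ S') x)) ^ 2 =
      Ex p A (fun a => GW W a ^ 2) := by
    intro W hW
    rw [← parseval h0 h1 A (GW W)]
    apply Finset.sum_congr rfl
    intro S' hS'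
    rw [stepB W hW S' (Finset.mem_powerset.mp hS')]
  -- conclusion
  calc ∑ W ∈ T.powerset, (lam p)⁻¹ ^ W.card *
        ∑ S' ∈ A.powerset, (Ex p univ (fun x => π x * chiS p (W ∪ S') x)) ^ 2
      = ∑ W ∈ T.powerset, Ex p A (fun a => (lam p)⁻¹ ^ W.card * GW W a ^ 2) := by
        apply Finset.sum_congr rfl
        intro W hW
        rw [stepC W (Finset.mem_powerset.mp hW), Ex_const_mul]
    _ = Ex p A (fun a => ∑ W ∈ T.powerset, (lam p)⁻¹ ^ W.card * GW W a ^ 2) := by
        rw [Ex_sum]
    _ ≤ Ex p A (fun a => t * Ex p T (gg a)) := by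
        apply Ex_mono hp0 hp1
        intro a ha
        exact stepA a ha
    _ = t * Ex p univ π := by
        rw [Ex_const_mul, fub]

/-- The class bound: Fourier mass on sets meeting `Y` in between `1` and `d` elements. -/
theorem class_bound {p : ℝ} (h0 : 0 < p) (h1 : p < 1) (f : Finset ι → ℝ) {A Y : Finset ι}
    (hd : Disjoint A Y) (d : ℕ) {t : ℝ} (ht : 0 ≤ t)
    (hD0 : ∀ e ∈ Y, ∀ x, 0 ≤ Dd e f x) (hD1 : ∀ e ∈ Y, ∀ x, Dd e f x ≤ 1)
    (hcap : ∀ e ∈ Y, ∀ a, a ⊆ A → Ex p Aᶜ (fun y => Dd e f (a ∪ y)) ≤ t ^ 2) :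
    ∑ S ∈ (A ∪ Y).powerset.filter (fun S => 1 ≤ (S ∩ Y).card ∧ (S ∩ Y).card ≤ d),
        (Ex p univ (fun x => f x * chiS p S x)) ^ 2
      ≤ (p * (1 - p)) * lam p ^ (d - 1) * t * ∑ e ∈ Y, Ex p univ (Dd e f) := by
  set w : Finset ι → ℝ := fun S => (Ex p univ (fun x => f x * chiS p S x)) ^ 2 with hw
  have hw0 : ∀ S, 0 ≤ w S := fun S => sq_nonneg _
  set F := (A ∪ Y).powerset.filter (fun S => 1 ≤ (S ∩ Y).card ∧ (S ∩ Y).card ≤ d) with hF
  have hl1 : 1 ≤ lam p := by linarith [four_le_lam h0 h1]
  have hlpos : 0 < lam p := by linarith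
  have hσ : 0 < p * (1 - p) := mul_pos h0 (by linarith)
  -- charge each set to its elements in `Y`
  have step1 : ∑ S ∈ F, w S ≤ ∑ S ∈ F, ∑ e ∈ Y, if e ∈ S then w S else 0 := by
    apply Finset.sum_le_sum
    intro S hS
    have hcard : 1 ≤ (S ∩ Y).card := (Finset.mem_filter.mp hS).2.1
    have heq : ∑ e ∈ Y, (if e ∈ S then w S else 0) = ((S ∩ Y).card : ℝ) * w S := by
      rw [Finset.sum_ite, Finset.sum_const_zero, add_zero, Finset.sum_const, nsmul_eq_mul]
      have : Y.filter (fun e => e ∈ S) = S ∩ Y := by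
        ext e
        simp [and_comm]
      rw [this]
    rw [heq]
    have : (1 : ℝ) ≤ ((S ∩ Y).card : ℝ) := by exact_mod_cast hcard
    nlinarith [hw0 S]
  have step2 : ∑ S ∈ F, ∑ e ∈ Y, (if e ∈ S then w S else 0) =
      ∑ e ∈ Y, ∑ S ∈ F, (if e ∈ S then w S else 0) := Finset.sum_comm
  -- the bound for a fixed element
  have step3 : ∀ e ∈ Y, ∑ S ∈ F, (if e ∈ S then w S else 0) ≤
      (p * (1 - p)) * lam p ^ (d - 1) * t * Ex p univ (Dd e f) := by
    intro e he
    set T := Y.erase e with hT
    have heT : e ∉ T := Finset.notMem_erase e Y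
    have hYT : Y = insert e T := (Finset.insert_erase he).symm
    have heA : e ∉ A := fun h => Finset.disjoint_left.mp hd h he
    have hdAT : Disjoint A T :=
      Finset.disjoint_of_subset_right (Finset.erase_subset e Y) hd
    have heAT : e ∉ A ∪ T := by simp [heA, heT]
    have hAY : A ∪ Y = insert e (A ∪ T) := by
      rw [hYT, Finset.union_insert]
    have hblock := block_level h0 h1 (Dd e f) (hD0 e he) (hD1 e he) hdAT ht (hcap e he)
    set E := Ex p univ (Dd e f) with hE
    set c := (p * (1 - p)) * lam p ^ (d - 1) with hc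
    have hc0 : 0 ≤ c := by positivity
    -- derivative identity
    have hder : ∀ S, e ∉ S → w (insert e S) =
        (p * (1 - p)) * (Ex p univ (fun x => Dd e f x * chiS p S x)) ^ 2 := by
      intro S heS
      simp only [hw]
      rw [fc_insert h0 h1 (Finset.mem_univ e) heS, mul_pow, sdv_sq h0 h1]
    have hsum : ∑ S ∈ F, (if e ∈ S then w S else 0) =
        ∑ S ∈ (A ∪ T).powerset,
          if (1 ≤ (insert e S ∩ Y).card ∧ (insert e S ∩ Y).card ≤ d) then w (insert e S) else 0 := by
      rw [hF, Finset.sum_filter, hAY, Finset.sum_powerset_insert heAT]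
      have hz : ∑ S ∈ (A ∪ T).powerset, (if (1 ≤ (S ∩ insert e (A ∪ T) ∩ Y).card) then (0:ℝ) else 0) = 0 := by
        simp
      have hz' : ∑ S ∈ (A ∪ T).powerset,
          (if (1 ≤ (S ∩ Y).card ∧ (S ∩ Y).card ≤ d) then (if e ∈ S then w S else 0) else 0) = 0 := by
        apply Finset.sum_eq_zero
        intro S hS
        have heS : e ∉ S := fun h => heAT (Finset.mem_powerset.mp hS h)
        simp [heS]
      rw [hz', zero_add]
      apply Finset.sum_congr rfl
      intro S _
      simp
    rw [hsum, sum_powerset_union hdAT, Finset.sum_comm]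
    have hterm : ∀ b ∈ T.powerset, ∀ a ∈ A.powerset,
        (if (1 ≤ (insert e (a ∪ b) ∩ Y).card ∧ (insert e (a ∪ b) ∩ Y).card ≤ d)
            then w (insert e (a ∪ b)) else 0) ≤
          c * ((lam p)⁻¹ ^ b.card * (Ex p univ (fun x => Dd e f x * chiS p (b ∪ a) x)) ^ 2) := by
      intro b hb a ha
      have hb' := Finset.mem_powerset.mp hb
      have ha' := Finset.mem_powerset.mp ha
      have hRHS : 0 ≤ c * ((lam p)⁻¹ ^ b.card * (Ex p univ (fun x => Dd e f x * chiS p (b ∪ a) x)) ^ 2) := by
        positivity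
      split_ifs with hcond
      · have hinter : insert e (a ∪ b) ∩ Y = insert e b := by
          ext e'
          simp only [Finset.mem_inter, Finset.mem_insert, Finset.mem_union]
          constructor
          · rintro ⟨h | h | h, hY⟩
            · exact Or.inl h
            · exact absurd hY (Finset.disjoint_left.mp hd (ha' h))
            · exact Or.inr h
          · rintro (h | h)
            · exact ⟨Or.inl h, h ▸ he⟩
            · exact ⟨Or.inr (Or.inr h), Finset.mem_of_mem_erase (hb' h)⟩
        have heb : e ∉ b := fun h => heT (hb' h)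
        have hcardb : b.card + 1 ≤ d := by
          have := hcond.2
          rwa [hinter, Finset.card_insert_of_notMem heb] at this
        have heab : e ∉ a ∪ b := by
          simp only [Finset.mem_union, not_or]
          exact ⟨fun h => heA (ha' h), heb⟩
        rw [hder _ heab, Finset.union_comm a b]
        have hlam : 1 ≤ lam p ^ (d - 1) * (lam p)⁻¹ ^ b.card := by
          have hle : b.card ≤ d - 1 := by omega
          have h2 : lam p ^ (d - 1) = lam p ^ (d - 1 - b.card) * lam p ^ b.card := by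
            rw [← pow_add]
            congr 1
            omega
          rw [h2, mul_assoc, ← mul_pow, mul_inv_cancel₀ hlpos.ne', one_pow, mul_one]
          exact one_le_pow₀ hl1
        have hsq : 0 ≤ (p * (1 - p)) * (Ex p univ (fun x => Dd e f x * chiS p (b ∪ a) x)) ^ 2 := by
          positivity
        calc (p * (1 - p)) * (Ex p univ (fun x => Dd e f x * chiS p (b ∪ a) x)) ^ 2
            = 1 * ((p * (1 - p)) * (Ex p univ (fun x => Dd e f x * chiS p (b ∪ a) x)) ^ 2) := by ring
          _ ≤ (lam p ^ (d - 1) * (lam p)⁻¹ ^ b.card) *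
                ((p * (1 - p)) * (Ex p univ (fun x => Dd e f x * chiS p (b ∪ a) x)) ^ 2) :=
              mul_le_mul_of_nonneg_right hlam hsq
          _ = _ := by rw [hc]; ring
      · exact hRHS
    calc _ ≤ ∑ b ∈ T.powerset, ∑ a ∈ A.powerset,
          c * ((lam p)⁻¹ ^ b.card * (Ex p univ (fun x => Dd e f x * chiS p (b ∪ a) x)) ^ 2) :=
          Finset.sum_le_sum (fun b hb => Finset.sum_le_sum (fun a ha => hterm b hb a ha))
      _ = c * ∑ b ∈ T.powerset, (lam p)⁻¹ ^ b.card *
            ∑ a ∈ A.powerset, (Ex p univ (fun x => Dd e f x * chiS p (b ∪ a) x)) ^ 2 := by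
          rw [Finset.mul_sum]
          apply Finset.sum_congr rfl
          intro b _
          rw [← Finset.mul_sum, ← Finset.mul_sum]
      _ ≤ c * (t * E) := mul_le_mul_of_nonneg_left hblock hc0
      _ = c * t * E := by ring
  calc ∑ S ∈ F, w S ≤ _ := step1
    _ = _ := step2
    _ ≤ ∑ e ∈ Y, (p * (1 - p)) * lam p ^ (d - 1) * t * Ex p univ (Dd e f) :=
        Finset.sum_le_sum step3
    _ = _ := by rw [Finset.mul_sum]

end Vale.Agent.Lib.P063Alt
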