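import Vale.Agent.Lib.P063Alt.Parseval

/-!
# The fourth moment (Bonami) inequality in polynomial form and the level inequality on a fibre.
-/

namespace Vale.Agent.Lib.P063Alt

open Finset

variable {ι : Type*} [DecidableEq ι]

/-- The Bonami constant `2 / √(p(1-p))`. -/
noncomputable def lam (p : ℝ) : ℝ := 2 / sdv p

theorem lam_pos {p : ℝ} (h0 : 0 < p) (h1 : p < 1) : 0 < lam p :=
  div_pos two_pos (sdv_pos h0 h1)

theorem sdv_le_half {p : ℝ} (h0 : 0 < p) (h1 : p < 1) : sdv p ≤ 1 / 2 := by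
  have hs := sdv_pos h0 h1
  have hs2 := sdv_sq h0 h1
  nlinarith [sq_nonneg (2 * p - 1)]

theorem four_le_lam {p : ℝ} (h0 : 0 < p) (h1 : p < 1) : 4 ≤ lam p := by
  have hs := sdv_pos h0 h1
  have := sdv_le_half h0 h1
  unfold lam
  rw [le_div_iff₀ hs]
  linarith

theorem lam_sq {p : ℝ} (h0 : 0 < p) (h1 : p < 1) : lam p ^ 2 = 4 / (p * (1 - p)) := by
  unfold lam
  rw [div_pow, sdv_sq h0 h1]
  norm_num

/-- The scalar inequality behind one step of Bonami. -/
theorem bonami_scalar {p : ℝ} (h0 : 0 < p) (h1 : p < 1) (P Q : ℝ) :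
    p * (P + ((1 - p) / sdv p) * Q) ^ 4 + (1 - p) * (P + (- p / sdv p) * Q) ^ 4 ≤
      P ^ 4 + 8 * (P ^ 2 * Q ^ 2) + lam p ^ 2 * Q ^ 4 := by
  have hs := sdv_pos h0 h1
  have hs2 := sdv_sq h0 h1
  set s := sdv p with hsdef
  have hq : 0 < 1 - p := by linarith
  have hσ : 0 < p * (1 - p) := mul_pos h0 hq
  -- the moments
  set γ : ℝ := (1 - 2 * p) / s with hγ
  have expand : p * (P + ((1 - p) / s) * Q) ^ 4 + (1 - p) * (P + (- p / s) * Q) ^ 4 =
      P ^ 4 + 6 * (P ^ 2 * Q ^ 2) + 4 * γ * (P * Q ^ 3) + (1 / (p * (1 - p)) - 3) * Q ^ 4 := by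
    have hs3 : s ^ 3 = s * (p * (1 - p)) := by rw [← hs2]; ring
    have hs4 : s ^ 4 = (p * (1 - p)) ^ 2 := by rw [← hs2]; ring
    have c2 : p * ((1 - p) / s) ^ 2 + (1 - p) * (- p / s) ^ 2 = 1 := by
      rw [div_pow, div_pow, hs2]; field_simp; ring
    have c1 : p * ((1 - p) / s) + (1 - p) * (- p / s) = 0 := by
      field_simp; ring
    have c3 : p * ((1 - p) / s) ^ 3 + (1 - p) * (- p / s) ^ 3 = γ := by
      rw [div_pow, div_pow, hs3, hγ]; field_simp; ring
    have c4 : p * ((1 - p) / s) ^ 4 + (1 - p) * (- p / s) ^ 4 = 1 / (p * (1 - p)) - 3 := by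
      rw [div_pow, div_pow, hs4]; field_simp; ring
    have : p * (P + ((1 - p) / s) * Q) ^ 4 + (1 - p) * (P + (- p / s) * Q) ^ 4 =
        (p + (1 - p)) * P ^ 4 + 4 * P ^ 3 * Q * (p * ((1 - p) / s) + (1 - p) * (- p / s))
        + 6 * P ^ 2 * Q ^ 2 * (p * ((1 - p) / s) ^ 2 + (1 - p) * (- p / s) ^ 2)
        + 4 * P * Q ^ 3 * (p * ((1 - p) / s) ^ 3 + (1 - p) * (- p / s) ^ 3)
        + Q ^ 4 * (p * ((1 - p) / s) ^ 4 + (1 - p) * (- p / s) ^ 4) := by ring
    rw [this, c1, c2, c3, c4]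
    ring
  rw [expand, lam_sq h0 h1]
  have hγ2 : γ ^ 2 = 1 / (p * (1 - p)) - 4 := by
    rw [hγ, div_pow, hs2]; field_simp; ring
  have hi : 0 < 1 / (p * (1 - p)) := by positivity
  have h4 : 4 / (p * (1 - p)) = 4 * (1 / (p * (1 - p))) := by ring
  rw [h4]
  set i := 1 / (p * (1 - p)) with hidef
  have hQ4 : 0 ≤ Q ^ 4 := by positivity
  have key : 4 * γ * (P * Q ^ 3) ≤ 2 * (P ^ 2 * Q ^ 2) + 2 * (γ ^ 2 * Q ^ 4) := by
    nlinarith [sq_nonneg (P * Q - γ * Q ^ 2)]
  rw [hγ2] at key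
  have : 0 ≤ (i + 11) * Q ^ 4 := by positivity
  nlinarith

/-- Bonami's inequality: fourth moment of a polynomial in the characters. -/
theorem bonami {p : ℝ} (h0 : 0 < p) (h1 : p < 1) (T : Finset ι) (a : Finset ι → ℝ) :
    Ex p T (fun x => (∑ W ∈ T.powerset, a W * chiS p W x) ^ 4) ≤
      (∑ W ∈ T.powerset, lam p ^ W.card * a W ^ 2) ^ 2 := by
  induction T using Finset.induction_on generalizing a with
  | empty => simp [Ex_empty, chiS_empty]; exact le_of_eq (by ring)
  | insert e T he ih =>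
    set P : Finset ι → ℝ := fun x => ∑ W ∈ T.powerset, a W * chiS p W x with hP
    set Q : Finset ι → ℝ := fun x => ∑ W ∈ T.powerset, a (insert e W) * chiS p W x with hQ
    have hlam := lam_pos h0 h1
    have hdecomp : ∀ x, (∑ W ∈ (insert e T).powerset, a W * chiS p W x) = P x + chi p e x * Q x := by
      intro x
      rw [Finset.sum_powerset_insert he]
      congr 1
      rw [hQ, Finset.mul_sum]
      apply Finset.sum_congr rfl
      intro W hW
      have heW : e ∉ W := fun h => he (Finset.mem_powerset.mp hW h)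
      rw [chiS_insert p heW]
      ring
    have hPins : ∀ R, R ⊆ T → P (insert e R) = P R := by
      intro R _
      rw [hP]
      simp only
      apply Finset.sum_congr rfl
      intro W hW
      have heW : e ∉ W := fun h => he (Finset.mem_powerset.mp hW h)
      rw [chiS_insert_eq p heW]
    have hQins : ∀ R, R ⊆ T → Q (insert e R) = Q R := by
      intro R _
      rw [hQ]
      simp only
      apply Finset.sum_congr rfl
      intro W hW
      have heW : e ∉ W := fun h => he (Finset.mem_powerset.mp hW h)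
      rw [chiS_insert_eq p heW]
    have h2 : Ex p (insert e T) (fun x => (∑ W ∈ (insert e T).powerset, a W * chiS p W x) ^ 4) =
        p * Ex p T (fun x => (P x + ((1 - p) / sdv p) * Q x) ^ 4)
          + (1 - p) * Ex p T (fun x => (P x + (- p / sdv p) * Q x) ^ 4) := by
      rw [Ex_insert p he]
      congr 2
      · apply Ex_congr
        intro R hR
        rw [hdecomp, hPins R hR, hQins R hR, chi_mem p (Finset.mem_insert_self e R)]
      · apply Ex_congr
        intro R hR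
        rw [hdecomp, chi_not_mem p (fun h => he (hR h))]
    have hq : 0 < 1 - p := by linarith
    have h3 : p * Ex p T (fun x => (P x + ((1 - p) / sdv p) * Q x) ^ 4)
          + (1 - p) * Ex p T (fun x => (P x + (- p / sdv p) * Q x) ^ 4) ≤
        Ex p T (fun x => P x ^ 4 + 8 * (P x ^ 2 * Q x ^ 2) + lam p ^ 2 * Q x ^ 4) := by
      rw [← Ex_const_mul, ← Ex_const_mul, ← Ex_add]
      apply Ex_mono h0.le h1.le
      intro R _
      exact bonami_scalar h0 h1 (P R) (Q R)
    have h4 : Ex p T (fun x => P x ^ 4 + 8 * (P x ^ 2 * Q x ^ 2) + lam p ^ 2 * Q x ^ 4) =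
        Ex p T (fun x => P x ^ 4) + 8 * Ex p T (fun x => P x ^ 2 * Q x ^ 2)
          + lam p ^ 2 * Ex p T (fun x => Q x ^ 4) := by
      rw [Ex_add, Ex_add, Ex_const_mul, Ex_const_mul]
    set α := ∑ W ∈ T.powerset, lam p ^ W.card * a W ^ 2 with hα
    set β := ∑ W ∈ T.powerset, lam p ^ W.card * a (insert e W) ^ 2 with hβ
    have hα0 : 0 ≤ α := Finset.sum_nonneg (fun W _ => by positivity)
    have hβ0 : 0 ≤ β := Finset.sum_nonneg (fun W _ => by positivity)
    have hP4 : Ex p T (fun x => P x ^ 4) ≤ α ^ 2 := ih a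
    have hQ4 : Ex p T (fun x => Q x ^ 4) ≤ β ^ 2 := ih (fun W => a (insert e W))
    have hP40 : 0 ≤ Ex p T (fun x => P x ^ 4) :=
      Ex_nonneg h0.le h1.le T (fun R _ => by positivity)
    have hQ40 : 0 ≤ Ex p T (fun x => Q x ^ 4) :=
      Ex_nonneg h0.le h1.le T (fun R _ => by positivity)
    have hPQ : Ex p T (fun x => P x ^ 2 * Q x ^ 2) ≤ α * β := by
      have hcs := Ex_cs h0.le h1.le T (fun x => P x ^ 4) (fun x => Q x ^ 4)
        (fun x => P x ^ 2 * Q x ^ 2) (fun R _ => by positivity) (fun R _ => by positivity)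
        (fun R _ => by ring)
      have hle : Ex p T (fun x => P x ^ 2 * Q x ^ 2) ^ 2 ≤ (α * β) ^ 2 := by
        calc _ ≤ _ := hcs
          _ ≤ α ^ 2 * β ^ 2 := mul_le_mul hP4 hQ4 hQ40 (by positivity)
          _ = (α * β) ^ 2 := by ring
      exact abs_le_of_sq_le_sq' hle (by positivity) |>.2
    have hsum : ∑ W ∈ (insert e T).powerset, lam p ^ W.card * a W ^ 2 = α + lam p * β := by
      rw [Finset.sum_powerset_insert he, hβ, Finset.mul_sum]
      congr 1
      apply Finset.sum_congr rfl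
      intro W hW
      have heW : e ∉ W := fun h => he (Finset.mem_powerset.mp hW h)
      rw [Finset.card_insert_of_notMem heW]
      ring
    rw [h2, hsum]
    refine h3.trans ?_
    rw [h4]
    have hl4 := four_le_lam h0 h1
    have hl2 : 0 ≤ lam p ^ 2 := by positivity
    have hm : lam p ^ 2 * Ex p T (fun x => Q x ^ 4) ≤ lam p ^ 2 * β ^ 2 :=
      mul_le_mul_of_nonneg_left hQ4 hl2
    have : 8 * (α * β) ≤ 2 * lam p * (α * β) := by
      have : 0 ≤ α * β := by positivity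
      nlinarith
    nlinarith

/-- The real-number conclusion of the level inequality. -/
theorem level_real {X Y m t : ℝ} (hX0 : 0 ≤ X) (hY0 : 0 ≤ Y) (hm0 : 0 ≤ m) (ht : 0 ≤ t)
    (cs1 : X ^ 2 ≤ m * Y) (cs3 : Y ^ 2 ≤ m * X ^ 2) (hcap : m ≤ t ^ 2) : X ≤ t * m := by
  have hX4 : X ^ 2 * X ^ 2 ≤ m ^ 3 * X ^ 2 := by
    have hYY : (X ^ 2) ^ 2 ≤ (m * Y) ^ 2 := pow_le_pow_left₀ (by positivity) cs1 2
    have : (m * Y) ^ 2 = m ^ 2 * Y ^ 2 := by ring
    have h5 : m ^ 2 * Y ^ 2 ≤ m ^ 2 * (m * X ^ 2) := mul_le_mul_of_nonneg_left cs3 (by positivity)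
    calc X ^ 2 * X ^ 2 = (X ^ 2) ^ 2 := by ring
      _ ≤ (m * Y) ^ 2 := hYY
      _ = m ^ 2 * Y ^ 2 := this
      _ ≤ m ^ 2 * (m * X ^ 2) := h5
      _ = m ^ 3 * X ^ 2 := by ring
  have hX2 : X ^ 2 ≤ m ^ 3 := by
    by_cases hX00 : X = 0
    · rw [hX00]; simp; positivity
    · have hXp : 0 < X ^ 2 := by positivity
      exact le_of_mul_le_mul_right hX4 hXp
  have hfinal : X ^ 2 ≤ (t * m) ^ 2 := by
    have h6 : m * m ^ 2 ≤ t ^ 2 * m ^ 2 := mul_le_mul_of_nonneg_right hcap (by positivity)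
    calc X ^ 2 ≤ m ^ 3 := hX2
      _ = m * m ^ 2 := by ring
      _ ≤ t ^ 2 * m ^ 2 := h6
      _ = (t * m) ^ 2 := by ring
  exact abs_le_of_sq_le_sq' hfinal (by positivity) |>.2

/-- The level inequality on a fibre: if `g` takes values in `[0,1]` and has mean at most `t ^ 2`,
the weighted Fourier mass of `g` is at most `t` times its mean. -/
theorem fibre_level {p : ℝ} (h0 : 0 < p) (h1 : p < 1) (T : Finset ι) (g : Finset ι → ℝ)
    (hg0 : ∀ R, R ⊆ T → 0 ≤ g R) (hg1 : ∀ R, R ⊆ T → g R ≤ 1) {t : ℝ} (ht : 0 ≤ t)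
    (hcap : Ex p T g ≤ t ^ 2) :
    ∑ W ∈ T.powerset, (lam p)⁻¹ ^ W.card * (Ex p T (fun x => g x * chiS p W x)) ^ 2 ≤ t * Ex p T g := by
  have hlam := lam_pos h0 h1
  set c : Finset ι → ℝ := fun W => (lam p)⁻¹ ^ W.card * Ex p T (fun x => g x * chiS p W x) with hc
  set ψ : Finset ι → ℝ := fun x => ∑ W ∈ T.powerset, c W * chiS p W x with hψ
  set X := ∑ W ∈ T.powerset, (lam p)⁻¹ ^ W.card * (Ex p T (fun x => g x * chiS p W x)) ^ 2 with hX
  have hX0 : 0 ≤ X := Finset.sum_nonneg (fun W _ => by positivity)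
  have hXψ : X = Ex p T (fun x => g x * ψ x) := by
    have : (fun x => g x * ψ x) = fun x => ∑ W ∈ T.powerset, c W * (g x * chiS p W x) := by
      funext x
      rw [hψ]
      simp only
      rw [Finset.mul_sum]
      apply Finset.sum_congr rfl
      intro W _
      ring
    rw [this, Ex_sum, hX]
    apply Finset.sum_congr rfl
    intro W _
    rw [Ex_const_mul, hc]
    ring
  have hbon : Ex p T (fun x => ψ x ^ 4) ≤ X ^ 2 := by
    have := bonami h0 h1 T c
    have heq : ∑ W ∈ T.powerset, lam p ^ W.card * c W ^ 2 = X := by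
      rw [hX]
      apply Finset.sum_congr rfl
      intro W _
      rw [hc]
      simp only
      have hone : lam p ^ W.card * (lam p)⁻¹ ^ W.card = 1 := by
        rw [← mul_pow, mul_inv_cancel₀ hlam.ne', one_pow]
      calc lam p ^ W.card * ((lam p)⁻¹ ^ W.card * Ex p T (fun x => g x * chiS p W x)) ^ 2
          = (lam p ^ W.card * (lam p)⁻¹ ^ W.card) *
              ((lam p)⁻¹ ^ W.card * (Ex p T (fun x => g x * chiS p W x)) ^ 2) := by ring
        _ = _ := by rw [hone, one_mul]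
    rw [heq] at this
    exact this
  set m := Ex p T g with hm
  have hm0 : 0 ≤ m := Ex_nonneg h0.le h1.le T hg0
  set Y := Ex p T (fun x => g x * ψ x ^ 2) with hY
  have hY0 : 0 ≤ Y := Ex_nonneg h0.le h1.le T (fun R hR => mul_nonneg (hg0 R hR) (by positivity))
  have cs1 : X ^ 2 ≤ m * Y := by
    rw [hXψ]
    apply Ex_cs h0.le h1.le T g _ _ hg0
    · intro R hR
      exact mul_nonneg (hg0 R hR) (by positivity)
    · intro R _
      ring
  have cs2 : Y ^ 2 ≤ Ex p T (fun x => g x ^ 2) * Ex p T (fun x => ψ x ^ 4) := by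
    apply Ex_cs h0.le h1.le T
    · intro R _; positivity
    · intro R _; positivity
    · intro R _; ring
  have hg2 : Ex p T (fun x => g x ^ 2) ≤ m := by
    apply Ex_mono h0.le h1.le
    intro R hR
    have := hg0 R hR
    have := hg1 R hR
    nlinarith
  have hψ0 : 0 ≤ Ex p T (fun x => ψ x ^ 4) := Ex_nonneg h0.le h1.le T (fun R _ => by positivity)
  have cs3 : Y ^ 2 ≤ m * X ^ 2 := by
    calc Y ^ 2 ≤ _ := cs2
      _ ≤ m * X ^ 2 := mul_le_mul hg2 hbon hψ0 hm0
  exact level_real hX0 hY0 hm0 ht cs1 cs3 hcap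

end Vale.Agent.Lib.P063Alt
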