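import Vale.Agent.Lib.P063Alt.Defs
import Vale.Agent.Lib.P063Alt.Block

/-!
# The cap: restricted influences are small, by Bessel on a transposition orbit.
-/

namespace Vale.Agent.Lib.P063Alt

open Finset

section generic

variable {ι : Type*} [DecidableEq ι]

/-- Change of variables by a permutation preserving the coordinate set. -/
theorem Ex_perm (p : ℝ) (T : Finset ι) (τ : Equiv.Perm ι) (hτ : ∀ e, e ∈ T ↔ τ e ∈ T)
    (g : Finset ι → ℝ) : Ex p T (fun x => g (x.map τ.toEmbedding)) = Ex p T g := by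
  unfold Ex
  have hwp : ∀ R : Finset ι, wp p T (R.map τ.toEmbedding) = wp p T R := by
    intro R
    unfold wp
    symm
    apply Finset.prod_equiv τ hτ
    intro e _
    simp
  apply Finset.sum_bij (fun R _ => R.map τ.toEmbedding)
  · intro R hR
    rw [Finset.mem_powerset] at hR ⊢
    intro e he
    obtain ⟨e', he', rfl⟩ := Finset.mem_map.mp he
    exact (hτ e').mp (hR he')
  · intro R _ R' _ h
    exact Finset.map_injective _ h
  · intro R hR
    refine ⟨R.map τ.symm.toEmbedding, ?_, ?_⟩
    · rw [Finset.mem_powerset] at hR ⊢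
      intro e he
      obtain ⟨e', he', rfl⟩ := Finset.mem_map.mp he
      have := hR he'
      rw [hτ]
      simpa using this
    · ext e
      simp
  · intro R _
    rw [hwp]

/-- A discrete derivative transported by a symmetry. -/
theorem Dd_perm (f : Finset ι → ℝ) (τ : Equiv.Perm ι)
    (hf : ∀ x, f (x.map τ.toEmbedding) = f x) (e : ι) (x : Finset ι) :
    Dd (τ e) f (x.map τ.toEmbedding) = Dd e f x := by
  unfold Dd
  have h1 : insert (τ e) (x.map τ.toEmbedding) = (insert e x).map τ.toEmbedding := by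
    rw [Finset.map_insert]; rfl
  have h2 : (x.map τ.toEmbedding).erase (τ e) = (x.erase e).map τ.toEmbedding := by
    rw [Finset.map_erase]; rfl
  rw [h1, h2, hf, hf]

/-- The restricted influence is unchanged by a symmetry fixing the frozen coordinates. -/
theorem restricted_perm (p : ℝ) (f : Finset ι → ℝ) [Fintype ι] (τ : Equiv.Perm ι)
    (hf : ∀ x, f (x.map τ.toEmbedding) = f x) {A a : Finset ι} (hA : ∀ e ∈ A, τ e = e)
    (ha : a ⊆ A) (e : ι) :
    Ex p Aᶜ (fun y => Dd (τ e) f (a ∪ y)) = Ex p Aᶜ (fun y => Dd e f (a ∪ y)) := by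
  have hτ : ∀ e', e' ∈ Aᶜ ↔ τ e' ∈ Aᶜ := by
    intro e'
    simp only [Finset.mem_compl]
    constructor
    · intro h h'
      have := hA _ h'
      have h3 : τ e' = e' := τ.injective this
      rw [h3] at h'
      exact h h'
    · intro h h'
      apply h
      rw [hA _ h']
      exact h'
  rw [← Ex_perm p Aᶜ τ hτ (fun y => Dd (τ e) f (a ∪ y))]
  apply Ex_congr
  intro R _
  have hamap : a.map τ.toEmbedding = a := by
    ext x
    simp only [Finset.mem_map, Equiv.coe_toEmbedding]
    constructor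
    · rintro ⟨y, hy, rfl⟩
      rw [hA y (ha hy)]
      exact hy
    · intro hx
      exact ⟨x, hx, hA x (ha hx)⟩
  have : a ∪ R.map τ.toEmbedding = (a ∪ R).map τ.toEmbedding := by
    rw [Finset.map_union, hamap]
  rw [this, Dd_perm f τ hf]

/-- Bessel on singletons for a `[0,1]`-valued function. -/
theorem bessel_singletons {p : ℝ} (h0 : 0 < p) (h1 : p < 1) (T O : Finset ι) (hO : O ⊆ T)
    (F : Finset ι → ℝ) (hF0 : ∀ x, 0 ≤ F x) (hF1 : ∀ x, F x ≤ 1) :
    (p * (1 - p)) * ∑ e ∈ O, (Ex p T (Dd e F)) ^ 2 ≤ 1 := by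
  have hpar := parseval h0 h1 T F
  have hle1 : Ex p T (fun x => F x ^ 2) ≤ 1 := by
    have : Ex p T (fun x => F x ^ 2) ≤ Ex p T (fun _ => 1) := by
      apply Ex_mono h0.le h1.le
      intro R _
      have := hF0 R
      have := hF1 R
      nlinarith
    rwa [Ex_one] at this
  have hsingle : ∀ e ∈ O, (p * (1 - p)) * (Ex p T (Dd e F)) ^ 2 =
      (Ex p T (fun x => F x * chiS p {e} x)) ^ 2 := by
    intro e he
    have := fc_insert h0 h1 (hO he) (Finset.notMem_empty e) F
    have hins : (insert e (∅ : Finset ι)) = {e} := by simp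
    rw [hins] at this
    rw [this, mul_pow, sdv_sq h0 h1]
    congr 2
    apply Ex_congr
    intro R _
    rw [chiS_empty, mul_one]
  calc (p * (1 - p)) * ∑ e ∈ O, (Ex p T (Dd e F)) ^ 2
      = ∑ e ∈ O, (Ex p T (fun x => F x * chiS p {e} x)) ^ 2 := by
        rw [Finset.mul_sum]
        exact Finset.sum_congr rfl hsingle
    _ = ∑ S ∈ O.image (fun e => ({e} : Finset ι)), (Ex p T (fun x => F x * chiS p S x)) ^ 2 := by
        rw [Finset.sum_image]
        intro a _ b _ h
        exact Finset.singleton_injective h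
    _ ≤ ∑ S ∈ T.powerset, (Ex p T (fun x => F x * chiS p S x)) ^ 2 := by
        apply Finset.sum_le_sum_of_subset_of_nonneg
        · intro S hS
          obtain ⟨e, he, rfl⟩ := Finset.mem_image.mp hS
          simpa using hO he
        · intro S _ _
          positivity
    _ = Ex p T (fun x => F x ^ 2) := hpar
    _ ≤ 1 := hle1

/-- The restricted derivative of `f` is the derivative of the restriction. -/
theorem Dd_restrict (f : Finset ι → ℝ) {a : Finset ι} {e : ι} (he : e ∉ a) (y : Finset ι) :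
    Dd e (fun y => f (a ∪ y)) y = Dd e f (a ∪ y) := by
  simp only [Dd]
  rw [Finset.union_insert, Finset.erase_union_distrib, Finset.erase_eq_of_notMem he]

/-- Generic form of the cap. -/
theorem cap_generic {p : ℝ} (h0 : 0 < p) (h1 : p < 1) [Fintype ι] (f : Finset ι → ℝ)
    (hf0 : ∀ x, 0 ≤ f x) (hf1 : ∀ x, f x ≤ 1) {A a O : Finset ι} (ha : a ⊆ A)
    (hO : O ⊆ Aᶜ) (e : ι) (hsame : ∀ e' ∈ O,
      Ex p Aᶜ (fun y => Dd e' f (a ∪ y)) = Ex p Aᶜ (fun y => Dd e f (a ∪ y)))
    {t : ℝ} (ht : 0 ≤ t) (hcapt : 1 ≤ (O.card : ℝ) * (p * (1 - p)) * t ^ 4) :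
    Ex p Aᶜ (fun y => Dd e f (a ∪ y)) ≤ t ^ 2 := by
  set Φ := Ex p Aᶜ (fun y => Dd e f (a ∪ y)) with hΦ
  have hb := bessel_singletons h0 h1 Aᶜ O hO (fun y => f (a ∪ y)) (fun y => hf0 _) (fun y => hf1 _)
  have hterm : ∀ e' ∈ O, (Ex p Aᶜ (Dd e' (fun y => f (a ∪ y)))) ^ 2 = Φ ^ 2 := by
    intro e' he'
    have hne : e' ∉ a := by
      intro h
      have := hO he'
      simp only [Finset.mem_compl] at this
      exact this (ha h)
    rw [← hsame e' he']
    congr 2
    funext y
    exact Dd_restrict f hne y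
  rw [Finset.sum_congr rfl hterm, Finset.sum_const, nsmul_eq_mul] at hb
  have hσ : 0 < p * (1 - p) := mul_pos h0 (by linarith)
  by_contra hcon'
  have hcon := not_le.mp hcon'
  have ht2 : 0 ≤ t ^ 2 := by positivity
  have hsq : (t ^ 2) ^ 2 < Φ ^ 2 := by
    apply pow_lt_pow_left₀ hcon ht2
    norm_num
  have hcard : (0 : ℝ) < (O.card : ℝ) := by
    by_contra hc
    have : (O.card : ℝ) ≤ 0 := not_lt.mp hc
    have h3 : (O.card : ℝ) * (p * (1 - p)) * t ^ 4 ≤ 0 := by
      have : (O.card : ℝ) * (p * (1 - p)) ≤ 0 := mul_nonpos_of_nonpos_of_nonneg this hσ.le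
      exact mul_nonpos_of_nonpos_of_nonneg this (by positivity)
    linarith
  have h4 : (O.card : ℝ) * (p * (1 - p)) * t ^ 4 < (O.card : ℝ) * (p * (1 - p)) * Φ ^ 2 := by
    apply mul_lt_mul_of_pos_left _ (mul_pos hcard hσ)
    calc t ^ 4 = (t ^ 2) ^ 2 := by ring
      _ < Φ ^ 2 := hsq
  have h5 : (p * (1 - p)) * ((O.card : ℝ) * Φ ^ 2) = (O.card : ℝ) * (p * (1 - p)) * Φ ^ 2 := by ring
  rw [h5] at hb
  linarith

end generic

section graph

variable {n r : ℕ}

/-- The relabelling of edges by a vertex permutation, as a permutation of edges. -/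
def edgePerm (g : Equiv.Perm (Fin n)) : Equiv.Perm (Edge n r) where
  toFun := relabelEdge g
  invFun := relabelEdge g.symm
  left_inv := by
    intro e
    apply Subtype.ext
    ext x
    simp [relabelEdge]
  right_inv := by
    intro e
    apply Subtype.ext
    ext x
    simp [relabelEdge]

theorem relabel_eq_map (g : Equiv.Perm (Fin n)) (x : Finset (Edge n r)) :
    relabel g x = x.map (edgePerm g).toEmbedding := by
  unfold relabel
  rw [Finset.map_eq_image]
  rfl

open Classical in
/-- The indicator function of a property. -/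
noncomputable def fP (P : Set (Finset (Edge n r))) (x : Finset (Edge n r)) : ℝ :=
  if x ∈ P then 1 else 0

theorem muP_eq_Ex (P : Set (Finset (Edge n r))) (p : ℝ) :
    muP P p = Ex p univ (fP P) := by
  classical
  unfold muP Ex fP wp
  rw [Finset.powerset_univ]
  apply Finset.sum_congr rfl
  intro x _
  split_ifs <;> simp

theorem fP_nonneg (P : Set (Finset (Edge n r))) (x : Finset (Edge n r)) : 0 ≤ fP P x := by
  unfold fP; split_ifs <;> norm_num

theorem fP_le_one (P : Set (Finset (Edge n r))) (x : Finset (Edge n r)) : fP P x ≤ 1 := by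
  unfold fP; split_ifs <;> norm_num

theorem fP_sq (P : Set (Finset (Edge n r))) (x : Finset (Edge n r)) : fP P x ^ 2 = fP P x := by
  unfold fP; split_ifs <;> norm_num

theorem fP_mono {P : Set (Finset (Edge n r))} (hinc : IsIncreasing P) {x y : Finset (Edge n r)}
    (h : x ⊆ y) : fP P x ≤ fP P y := by
  unfold fP
  by_cases hx : x ∈ P
  · have := hinc x y h hx
    simp [hx, this]
  · simp only [hx, if_false]
    split_ifs <;> norm_num

theorem fP_perm {P : Set (Finset (Edge n r))} (hinv : IsInvariant P) (g : Equiv.Perm (Fin n))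
    (x : Finset (Edge n r)) : fP P (x.map (edgePerm g).toEmbedding) = fP P x := by
  unfold fP
  rw [← relabel_eq_map]
  by_cases hx : x ∈ P
  · have := (hinv g x).mp hx
    simp [hx, this]
  · have : relabel g x ∉ P := fun h => hx ((hinv g x).mpr h)
    simp [hx, this]

theorem Dd_nonneg {P : Set (Finset (Edge n r))} (hinc : IsIncreasing P) (e : Edge n r)
    (x : Finset (Edge n r)) : 0 ≤ Dd e (fP P) x := by
  unfold Dd
  have : x.erase e ⊆ insert e x := (Finset.erase_subset e x).trans (Finset.subset_insert e x)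
  have := fP_mono hinc this
  linarith

theorem Dd_le_one (P : Set (Finset (Edge n r))) (e : Edge n r)
    (x : Finset (Edge n r)) : Dd e (fP P) x ≤ 1 := by
  unfold Dd
  have := fP_le_one P (insert e x)
  have := fP_nonneg P (x.erase e)
  linarith

/-- Edges disjoint from `U`. -/
def AU (U : Finset (Fin n)) : Finset (Edge n r) := univ.filter (fun e => Disjoint e.1 U)

/-- Edges meeting `U` exactly in the vertex `u`. -/
def YU (U : Finset (Fin n)) (u : Fin n) : Finset (Edge n r) :=
  univ.filter (fun e => e.1 ∩ U = {u})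

theorem AU_YU_disjoint (U : Finset (Fin n)) (u : Fin n) :
    Disjoint (AU U : Finset (Edge n r)) (YU U u) := by
  rw [Finset.disjoint_left]
  intro e h1 h2
  have h3 : Disjoint e.1 U := (Finset.mem_filter.mp h1).2
  have h4 : e.1 ∩ U = {u} := (Finset.mem_filter.mp h2).2
  rw [Finset.disjoint_iff_inter_eq_empty] at h3
  rw [h3] at h4
  exact (Finset.singleton_ne_empty u) h4.symm

/-- The swap of two vertices of `U` fixes every edge disjoint from `U`. -/
theorem swap_fixes {U : Finset (Fin n)} {u u' : Fin n} (hu : u ∈ U) (hu' : u' ∈ U)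
    (e : Edge n r) (he : e ∈ (AU U : Finset (Edge n r))) :
    edgePerm (Equiv.swap u u') e = e := by
  have hd : Disjoint e.1 U := (Finset.mem_filter.mp he).2
  apply Subtype.ext
  change e.1.map (Equiv.swap u u').toEmbedding = e.1
  ext x
  simp only [Finset.mem_map, Equiv.coe_toEmbedding]
  have hfix : ∀ y ∈ e.1, Equiv.swap u u' y = y := by
    intro y hy
    apply Equiv.swap_apply_of_ne_of_ne
    · intro h; exact Finset.disjoint_left.mp hd hy (h ▸ hu)
    · intro h; exact Finset.disjoint_left.mp hd hy (h ▸ hu')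
  constructor
  · rintro ⟨y, hy, rfl⟩
    rw [hfix y hy]; exact hy
  · intro hx
    exact ⟨x, hx, hfix x hx⟩

/-- The swapped edge meets `U` exactly in the new vertex. -/
theorem swap_inter {U : Finset (Fin n)} {u u' : Fin n} (hu' : u' ∈ U)
    (e : Edge n r) (he : e.1 ∩ U = {u}) :
    (edgePerm (Equiv.swap u u') e).1 ∩ U = {u'} := by
  have hue : u ∈ e.1 := by
    have : u ∈ e.1 ∩ U := by rw [he]; simp
    exact (Finset.mem_inter.mp this).1
  change e.1.map (Equiv.swap u u').toEmbedding ∩ U = {u'}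
  ext x
  simp only [Finset.mem_inter, Finset.mem_map, Equiv.coe_toEmbedding, Finset.mem_singleton]
  constructor
  · rintro ⟨⟨y, hy, rfl⟩, hxU⟩
    by_cases h1 : y = u
    · rw [h1]; simp
    · by_cases h2 : y = u'
      · subst h2
        have : y ∈ e.1 ∩ U := Finset.mem_inter.mpr ⟨hy, hu'⟩
        rw [he, Finset.mem_singleton] at this
        exact absurd this h1
      · rw [Equiv.swap_apply_of_ne_of_ne h1 h2] at hxU ⊢
        have : y ∈ e.1 ∩ U := Finset.mem_inter.mpr ⟨hy, hxU⟩
        rw [he, Finset.mem_singleton] at this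
        exact absurd this h1
  · rintro rfl
    exact ⟨⟨u, hue, by simp⟩, hu'⟩

/-- The cap for hypergraph properties. -/
theorem cap_bound {P : Set (Finset (Edge n r))} (hinv : IsInvariant P) {p : ℝ}
    (h0 : 0 < p) (h1 : p < 1) {U : Finset (Fin n)} {u : Fin n} (hu : u ∈ U) {e : Edge n r}
    (he : e ∈ (YU U u : Finset (Edge n r))) {a : Finset (Edge n r)} (ha : a ⊆ AU U)
    {t : ℝ} (ht : 0 ≤ t) (hcapt : 1 ≤ (U.card : ℝ) * (p * (1 - p)) * t ^ 4) :
    Ex p (AU U)ᶜ (fun y => Dd e (fP P) (a ∪ y)) ≤ t ^ 2 := by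
  have hei : e.1 ∩ U = {u} := (Finset.mem_filter.mp he).2
  set O : Finset (Edge n r) := U.image (fun u' => edgePerm (Equiv.swap u u') e) with hO
  have hinj : Set.InjOn (fun u' => edgePerm (Equiv.swap u u') e) (U : Set (Fin n)) := by
    intro u1 hu1 u2 hu2 h
    have h1 := swap_inter (r := r) (Finset.mem_coe.mp hu1) e hei
    have h2 := swap_inter (r := r) (Finset.mem_coe.mp hu2) e hei
    simp only at h
    rw [h, h2] at h1
    exact (Finset.singleton_injective h1).symm
  have hOcard : O.card = U.card := Finset.card_image_of_injOn hinj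
  have hOsub : O ⊆ (AU U)ᶜ := by
    intro e' he'
    obtain ⟨u', hu', rfl⟩ := Finset.mem_image.mp he'
    have h2 := swap_inter (r := r) hu' e hei
    simp only [Finset.mem_compl]
    intro hA
    have hd : Disjoint (edgePerm (Equiv.swap u u') e).1 U := (Finset.mem_filter.mp hA).2
    rw [Finset.disjoint_iff_inter_eq_empty, h2] at hd
    exact (Finset.singleton_ne_empty u') hd
  apply cap_generic h0 h1 (fP P) (fP_nonneg P) (fP_le_one P) ha hOsub e _ ht
  · rw [hOcard]; exact hcapt
  · intro e' he'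
    obtain ⟨u', hu', rfl⟩ := Finset.mem_image.mp he'
    exact restricted_perm p (fP P) (edgePerm (Equiv.swap u u')) (fP_perm hinv _)
      (fun e1 he1 => swap_fixes hu hu' e1 he1) ha e

end graph

end Vale.Agent.Lib.P063Alt
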