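import Vale.Agent.Lib.P063Alt.Defs

/-!
# Combinatorics: a low degree vertex, and counting the sets `U`.
-/

namespace Vale.Agent.Lib.P063Alt

open Finset

/-- Binomial coefficients do not drop much when the top goes down a little. -/
theorem choose_ratio (M j l : ℕ) (h : 2 * j * l ≤ M) : M.choose l ≤ 2 * (M - j).choose l := by
  cases l with
  | zero => simp
  | succ l =>
    have hstep : ∀ i, M.choose (l + 1) ≤ (M - i).choose (l + 1) + i * (M - 1).choose l := by
      intro i
      induction i with
      | zero => simp
      | succ i ih =>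
        have h2 : (M - i).choose (l + 1) ≤ (M - (i + 1)).choose (l + 1) + (M - 1).choose l := by
          rcases Nat.eq_zero_or_pos (M - i) with h0 | hpos
          · rw [h0]; simp
          · obtain ⟨m, hm⟩ : ∃ m, M - i = m + 1 := ⟨M - i - 1, by omega⟩
            have h3 : M - (i + 1) = m := by omega
            rw [hm, h3, Nat.choose_succ_succ']
            have : m.choose l ≤ (M - 1).choose l := Nat.choose_le_choose l (by omega)
            omega
        calc M.choose (l + 1) ≤ (M - i).choose (l + 1) + i * (M - 1).choose l := ih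
          _ ≤ (M - (i + 1)).choose (l + 1) + (M - 1).choose l + i * (M - 1).choose l := by omega
          _ = _ := by ring
    rcases Nat.eq_zero_or_pos M with hM | hM
    · subst hM; simp
    · obtain ⟨m, rfl⟩ : ∃ m, M = m + 1 := ⟨M - 1, by omega⟩
      have hk := hstep j
      have hid : (m + 1) * m.choose l = (m + 1).choose (l + 1) * (l + 1) :=
        Nat.add_one_mul_choose_eq m l
      simp only [Nat.add_sub_cancel] at hk
      set A := (m + 1).choose (l + 1) with hA
      set B := (m + 1 - j).choose (l + 1) with hB
      set D := m.choose l with hD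
      -- multiply by `m + 1`
      have h1 : (m + 1) * A ≤ (m + 1) * B + j * ((m + 1) * D) := by
        calc (m + 1) * A ≤ (m + 1) * (B + j * D) := Nat.mul_le_mul_left _ hk
          _ = _ := by ring
      rw [hid] at h1
      have h2 : 2 * ((m + 1) * A) ≤ 2 * ((m + 1) * B) + (2 * j * (l + 1)) * A := by
        calc 2 * ((m + 1) * A) ≤ 2 * ((m + 1) * B + j * (A * (l + 1))) := by omega
          _ = _ := by ring
      have h3 : (2 * j * (l + 1)) * A ≤ (m + 1) * A := Nat.mul_le_mul_right _ h
      have h4 : (m + 1) * A ≤ (m + 1) * (2 * B) := by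
        have : 2 * ((m + 1) * B) = (m + 1) * (2 * B) := by ring
        omega
      exact Nat.le_of_mul_le_mul_left h4 (by omega)

theorem choose_pos_of (M j l : ℕ) (h : 2 * j * l ≤ M) (hj : 1 ≤ j) : 0 < (M - j).choose l := by
  apply Nat.choose_pos
  rcases Nat.eq_zero_or_pos l with hl | hl
  · subst hl; omega
  · have h1 : j * 1 ≤ j * l := Nat.mul_le_mul_left j hl
    have h2 : 1 * l ≤ j * l := Nat.mul_le_mul_right l hj
    have h3 : 2 * j * l = j * l + j * l := by ring
    omega

variable {n r : ℕ}

/-- The number of `L`-subsets of the vertex set meeting `Z` exactly in `x`. -/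
theorem count_exact {Z : Finset (Fin n)} {x : Fin n} (hx : x ∈ Z) {L : ℕ} (hL : 1 ≤ L) :
    ((powersetCard L (univ : Finset (Fin n))).filter (fun U => Z ∩ U = {x})).card =
      (n - Z.card).choose (L - 1) := by
  have hcompl : (Zᶜ).card = n - Z.card := by
    rw [Finset.card_compl, Fintype.card_fin]
  rw [← hcompl, ← Finset.card_powersetCard]
  apply Finset.card_nbij' (fun U => U.erase x) (fun W => insert x W)
  · intro U hU
    have hU' := Finset.mem_coe.mp hU
    obtain ⟨h1, h2⟩ := Finset.mem_filter.mp hU'
    have hcard := (Finset.mem_powersetCard.mp h1).2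
    have hxU : x ∈ U := by
      have : x ∈ Z ∩ U := by rw [h2]; simp
      exact (Finset.mem_inter.mp this).2
    apply Finset.mem_coe.mpr
    apply Finset.mem_powersetCard.mpr
    constructor
    · intro y hy
      simp only [Finset.mem_compl]
      intro hyZ
      have hyU := Finset.mem_of_mem_erase hy
      have : y ∈ Z ∩ U := Finset.mem_inter.mpr ⟨hyZ, hyU⟩
      rw [h2, Finset.mem_singleton] at this
      exact (Finset.ne_of_mem_erase hy) this
    · rw [Finset.card_erase_of_mem hxU, hcard]
  · intro W hW
    have hW' := Finset.mem_powersetCard.mp (Finset.mem_coe.mp hW)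
    have hxW : x ∉ W := fun h => by
      have := hW'.1 h
      simp only [Finset.mem_compl] at this
      exact this hx
    apply Finset.mem_coe.mpr
    apply Finset.mem_filter.mpr
    constructor
    · apply Finset.mem_powersetCard.mpr
      refine ⟨Finset.subset_univ _, ?_⟩
      rw [Finset.card_insert_of_notMem hxW, hW'.2]
      omega
    · ext y
      simp only [Finset.mem_inter, Finset.mem_insert, Finset.mem_singleton]
      constructor
      · rintro ⟨hyZ, h | h⟩
        · exact h
        · have := hW'.1 h
          simp only [Finset.mem_compl] at this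
          exact absurd hyZ this
      · rintro rfl
        exact ⟨hx, Or.inl rfl⟩
  · intro U hU
    have hU' := Finset.mem_coe.mp hU
    obtain ⟨_, h2⟩ := Finset.mem_filter.mp hU'
    have hxU : x ∈ U := by
      have : x ∈ Z ∩ U := by rw [h2]; simp
      exact (Finset.mem_inter.mp this).2
    exact Finset.insert_erase hxU
  · intro W hW
    have hW' := Finset.mem_powersetCard.mp (Finset.mem_coe.mp hW)
    have hxW : x ∉ W := fun h => by
      have := hW'.1 h
      simp only [Finset.mem_compl] at this
      exact this hx
    exact Finset.erase_insert hxW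

/-- The vertices covered by a hypergraph. -/
def verts (S : Finset (Edge n r)) : Finset (Fin n) := S.biUnion (fun e => e.1)

/-- The degree of a vertex in a hypergraph. -/
def vdeg (S : Finset (Edge n r)) (v : Fin n) : ℕ := (S.filter (fun e => v ∈ e.1)).card

theorem mem_verts {S : Finset (Edge n r)} {v : Fin n} :
    v ∈ verts S ↔ ∃ e ∈ S, v ∈ e.1 := by
  simp [verts]

theorem subset_verts {S : Finset (Edge n r)} {e : Edge n r} (he : e ∈ S) : e.1 ⊆ verts S :=
  fun _ hv => mem_verts.mpr ⟨e, he, hv⟩

theorem card_verts_le (S : Finset (Edge n r)) : (verts S).card ≤ r * S.card := by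
  calc (verts S).card ≤ ∑ e ∈ S, e.1.card := Finset.card_biUnion_le
    _ = ∑ _e ∈ S, r := Finset.sum_congr rfl (fun e _ => e.2)
    _ = r * S.card := by rw [Finset.sum_const, smul_eq_mul, mul_comm]

theorem sum_vdeg (S : Finset (Edge n r)) : ∑ v ∈ verts S, vdeg S v = r * S.card := by
  unfold vdeg
  have := Finset.sum_card_bipartiteAbove_eq_sum_card_bipartiteBelow (s := verts S) (t := S)
    (fun (v : Fin n) (e : Edge n r) => v ∈ e.1)
  unfold Finset.bipartiteAbove Finset.bipartiteBelow at this
  rw [this]
  have h2 : ∀ e ∈ S, ((verts S).filter (fun v => v ∈ e.1)).card = r := by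
    intro e he
    have : (verts S).filter (fun v => v ∈ e.1) = e.1 := by
      ext v
      simp only [Finset.mem_filter]
      exact ⟨fun h => h.2, fun h => ⟨subset_verts he h, h⟩⟩
    rw [this, e.2]
  rw [Finset.sum_congr rfl h2, Finset.sum_const, smul_eq_mul, mul_comm]

theorem vdeg_le (S : Finset (Edge n r)) (v : Fin n) (hr : 1 ≤ r) :
    vdeg S v ≤ (verts S).card ^ (r - 1) := by
  unfold vdeg
  have h1 : (S.filter (fun e => v ∈ e.1)).card ≤ (powersetCard (r - 1) (verts S)).card := by
    apply Finset.card_le_card_of_injOn (fun e => e.1.erase v)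
    · intro e he
      have he' := Finset.mem_filter.mp (Finset.mem_coe.mp he)
      apply Finset.mem_coe.mpr
      apply Finset.mem_powersetCard.mpr
      constructor
      · exact (Finset.erase_subset v e.1).trans (subset_verts he'.1)
      · rw [Finset.card_erase_of_mem he'.2, e.2]
    · intro e he e' he' h
      have h1 := (Finset.mem_filter.mp (Finset.mem_coe.mp he)).2
      have h2 := (Finset.mem_filter.mp (Finset.mem_coe.mp he')).2
      apply Subtype.ext
      simp only at h
      rw [← Finset.insert_erase h1, h, Finset.insert_erase h2]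
  rw [Finset.card_powersetCard] at h1
  exact h1.trans (Nat.choose_le_pow _ _)

/-- A sparse hypergraph has a vertex of low positive degree and few vertices. -/
theorem low_deg {S : Finset (Edge n r)} (hS : S.Nonempty) (hr : 2 ≤ r) {d : ℕ}
    (hlt : (r * S.card) ^ (r - 1) < (d + 1) ^ r) :
    (∃ x ∈ verts S, vdeg S x ≤ d) ∧ (verts S).card < (d + 1) ^ 2 := by
  constructor
  · by_contra hcon
    have hall : ∀ v ∈ verts S, d + 1 ≤ vdeg S v := by
      intro v hv
      by_contra h
      exact hcon ⟨v, hv, by omega⟩
    obtain ⟨e, he⟩ := hS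
    have hne : (e.1).Nonempty := by
      rw [← Finset.card_pos, e.2]; omega
    obtain ⟨v, hv⟩ := hne
    have hvV : v ∈ verts S := subset_verts he hv
    have h1 : d + 1 ≤ (verts S).card ^ (r - 1) :=
      (hall v hvV).trans (vdeg_le S v (by omega))
    have h2 : (verts S).card * (d + 1) ≤ r * S.card := by
      rw [← sum_vdeg S, ← smul_eq_mul, ← Finset.sum_const]
      exact Finset.sum_le_sum hall
    have h3 : (d + 1) ^ r ≤ (r * S.card) ^ (r - 1) := by
      obtain ⟨k, rfl⟩ : ∃ k, r = k + 1 := ⟨r - 1, by omega⟩
      simp only [Nat.add_sub_cancel] at *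
      calc (d + 1) ^ (k + 1) = (d + 1) ^ k * (d + 1) := pow_succ _ _
        _ ≤ (d + 1) ^ k * (verts S).card ^ k := Nat.mul_le_mul_left _ h1
        _ = ((verts S).card * (d + 1)) ^ k := by rw [mul_pow, mul_comm]
        _ ≤ _ := Nat.pow_le_pow_left h2 k
    omega
  · have h1 : (r * S.card) ^ (r - 1) < ((d + 1) ^ 2) ^ (r - 1) := by
      calc (r * S.card) ^ (r - 1) < (d + 1) ^ r := hlt
        _ ≤ (d + 1) ^ (2 * (r - 1)) := Nat.pow_le_pow_right (by omega) (by omega)
        _ = _ := by rw [pow_mul]
    have h2 : r * S.card < (d + 1) ^ 2 := lt_of_pow_lt_pow_left₀ _ (Nat.zero_le _) h1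
    exact (card_verts_le S).trans_lt h2

end Vale.Agent.Lib.P063Alt
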