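import Mathlib

/-!
# Expectations over subsets of a finite coordinate set, with product `p`-biased weights.
-/

namespace Vale.Agent.Lib.P063Alt

open Finset

variable {ι : Type*} [DecidableEq ι]

/-- Product weight of the configuration `x` on the coordinate set `T`. -/
noncomputable def wp (p : ℝ) (T x : Finset ι) : ℝ := ∏ e ∈ T, if e ∈ x then p else 1 - p

/-- Expectation of `g` over the `p`-biased random subset of `T`. -/
noncomputable def Ex (p : ℝ) (T : Finset ι) (g : Finset ι → ℝ) : ℝ :=
  ∑ R ∈ T.powerset, wp p T R * g R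

theorem wp_nonneg {p : ℝ} (h0 : 0 ≤ p) (h1 : p ≤ 1) (T x : Finset ι) : 0 ≤ wp p T x := by
  unfold wp
  apply Finset.prod_nonneg
  intro e _
  split_ifs <;> linarith

theorem Ex_empty (p : ℝ) (g : Finset ι → ℝ) : Ex p (∅ : Finset ι) g = g ∅ := by
  simp [Ex, wp]

theorem wp_insert_mem {p : ℝ} {e : ι} {T R : Finset ι} (he : e ∉ T) :
    wp p (insert e T) (insert e R) = p * wp p T R := by
  unfold wp
  rw [Finset.prod_insert he]
  congr 1
  · simp
  · apply Finset.prod_congr rfl
    intro e' he'
    have : e' ≠ e := fun h => he (h ▸ he')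
    simp [Finset.mem_insert, this]

theorem wp_insert_not_mem {p : ℝ} {e : ι} {T R : Finset ι} (he : e ∉ T) (hR : R ⊆ T) :
    wp p (insert e T) R = (1 - p) * wp p T R := by
  unfold wp
  rw [Finset.prod_insert he]
  have : e ∉ R := fun h => he (hR h)
  simp [this]

/-- The basic recursion for the expectation. -/
theorem Ex_insert (p : ℝ) {e : ι} {T : Finset ι} (he : e ∉ T) (g : Finset ι → ℝ) :
    Ex p (insert e T) g = p * Ex p T (fun R => g (insert e R)) + (1 - p) * Ex p T g := by
  unfold Ex
  rw [Finset.sum_powerset_insert he, Finset.mul_sum, Finset.mul_sum, add_comm]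
  congr 1
  · apply Finset.sum_congr rfl
    intro R _
    rw [wp_insert_mem he]; ring
  · apply Finset.sum_congr rfl
    intro R hR
    rw [wp_insert_not_mem he (Finset.mem_powerset.mp hR)]; ring

theorem Ex_congr (p : ℝ) (T : Finset ι) {g h : Finset ι → ℝ}
    (hgh : ∀ R, R ⊆ T → g R = h R) : Ex p T g = Ex p T h := by
  unfold Ex
  apply Finset.sum_congr rfl
  intro R hR
  rw [hgh R (Finset.mem_powerset.mp hR)]

theorem Ex_add (p : ℝ) (T : Finset ι) (g h : Finset ι → ℝ) :
    Ex p T (fun x => g x + h x) = Ex p T g + Ex p T h := by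
  unfold Ex
  rw [← Finset.sum_add_distrib]
  apply Finset.sum_congr rfl
  intro R _
  ring

theorem Ex_sub (p : ℝ) (T : Finset ι) (g h : Finset ι → ℝ) :
    Ex p T (fun x => g x - h x) = Ex p T g - Ex p T h := by
  unfold Ex
  rw [← Finset.sum_sub_distrib]
  apply Finset.sum_congr rfl
  intro R _
  ring

theorem Ex_const_mul (p : ℝ) (T : Finset ι) (c : ℝ) (g : Finset ι → ℝ) :
    Ex p T (fun x => c * g x) = c * Ex p T g := by
  unfold Ex
  rw [Finset.mul_sum]
  apply Finset.sum_congr rfl
  intro R _
  ring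

theorem Ex_mul_const (p : ℝ) (T : Finset ι) (c : ℝ) (g : Finset ι → ℝ) :
    Ex p T (fun x => g x * c) = Ex p T g * c := by
  unfold Ex
  rw [Finset.sum_mul]
  apply Finset.sum_congr rfl
  intro R _
  ring

theorem Ex_sum {κ : Type*} (p : ℝ) (T : Finset ι) (s : Finset κ) (g : κ → Finset ι → ℝ) :
    Ex p T (fun x => ∑ k ∈ s, g k x) = ∑ k ∈ s, Ex p T (g k) := by
  unfold Ex
  simp_rw [Finset.mul_sum]
  rw [Finset.sum_comm]

theorem Ex_one (p : ℝ) (T : Finset ι) : Ex p T (fun _ => 1) = 1 := by
  induction T using Finset.induction_on with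
  | empty => simp [Ex_empty]
  | insert e T he ih =>
    rw [Ex_insert p he, ih]; ring

theorem Ex_const (p : ℝ) (T : Finset ι) (c : ℝ) : Ex p T (fun _ => c) = c := by
  have := Ex_const_mul p T c (fun _ => 1)
  simpa [Ex_one] using this

theorem Ex_nonneg {p : ℝ} (h0 : 0 ≤ p) (h1 : p ≤ 1) (T : Finset ι) {g : Finset ι → ℝ}
    (hg : ∀ R, R ⊆ T → 0 ≤ g R) : 0 ≤ Ex p T g := by
  unfold Ex
  apply Finset.sum_nonneg
  intro R hR
  exact mul_nonneg (wp_nonneg h0 h1 _ _) (hg R (Finset.mem_powerset.mp hR))

theorem Ex_mono {p : ℝ} (h0 : 0 ≤ p) (h1 : p ≤ 1) (T : Finset ι) {g h : Finset ι → ℝ}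
    (hg : ∀ R, R ⊆ T → g R ≤ h R) : Ex p T g ≤ Ex p T h := by
  unfold Ex
  apply Finset.sum_le_sum
  intro R hR
  exact mul_le_mul_of_nonneg_left (hg R (Finset.mem_powerset.mp hR)) (wp_nonneg h0 h1 _ _)

/-- Fubini for disjoint coordinate sets. -/
theorem Ex_union (p : ℝ) {A T : Finset ι} (hd : Disjoint A T) (g : Finset ι → ℝ) :
    Ex p (A ∪ T) g = Ex p A (fun a => Ex p T (fun R => g (a ∪ R))) := by
  induction A using Finset.induction_on generalizing g with
  | empty => simp [Ex_empty]
  | insert e A he ih =>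
    have hd' : Disjoint A T := (Finset.disjoint_insert_left.mp hd).2
    have heT : e ∉ T := (Finset.disjoint_insert_left.mp hd).1
    have he' : e ∉ A ∪ T := by simp [he, heT]
    rw [Finset.insert_union, Ex_insert p he', Ex_insert p he, ih hd', ih hd']
    simp only [Finset.insert_union]

/-- Cauchy-Schwarz for the expectation, in the weighted form. -/
theorem Ex_cs {p : ℝ} (h0 : 0 ≤ p) (h1 : p ≤ 1) (T : Finset ι) (u v w : Finset ι → ℝ)
    (hu : ∀ R, R ⊆ T → 0 ≤ u R) (hv : ∀ R, R ⊆ T → 0 ≤ v R)
    (hw : ∀ R, R ⊆ T → w R ^ 2 = u R * v R) :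
    Ex p T w ^ 2 ≤ Ex p T u * Ex p T v := by
  unfold Ex
  apply Finset.sum_sq_le_sum_mul_sum_of_sq_le_mul
  · intro R hR
    exact mul_nonneg (wp_nonneg h0 h1 _ _) (hu R (Finset.mem_powerset.mp hR))
  · intro R hR
    exact mul_nonneg (wp_nonneg h0 h1 _ _) (hv R (Finset.mem_powerset.mp hR))
  · intro R hR
    rw [mul_pow, hw R (Finset.mem_powerset.mp hR), sq]
    apply le_of_eq
    ring

/-- Expectation at `p = 0` is the value at the empty configuration. -/
theorem Ex_zero (T : Finset ι) (g : Finset ι → ℝ) : Ex 0 T g = g ∅ := by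
  induction T using Finset.induction_on generalizing g with
  | empty => simp [Ex_empty]
  | insert e T he ih =>
    rw [Ex_insert 0 he, ih g]; ring

/-- Expectation at `p = 1` is the value at the full configuration. -/
theorem Ex_at_one (T : Finset ι) (g : Finset ι → ℝ) : Ex 1 T g = g T := by
  induction T using Finset.induction_on generalizing g with
  | empty => simp [Ex_empty]
  | insert e T he ih =>
    rw [Ex_insert 1 he, ih]; ring

/-- Discrete derivative in direction `e`. -/
def Dd (e : ι) (g : Finset ι → ℝ) (x : Finset ι) : ℝ := g (insert e x) - g (x.erase e)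

theorem Dd_insert (e : ι) (g : Finset ι → ℝ) {x : Finset ι} (he : e ∉ x) :
    Dd e g (insert e x) = g (insert e x) - g x := by
  simp [Dd, Finset.erase_insert he]

theorem Dd_not_mem (e : ι) (g : Finset ι → ℝ) {x : Finset ι} (he : e ∉ x) :
    Dd e g x = g (insert e x) - g x := by
  simp [Dd, Finset.erase_eq_of_notMem he]

/-- Expectation of a discrete derivative over a set containing the direction. -/
theorem Ex_Dd_insert (p : ℝ) {e : ι} {T : Finset ι} (he : e ∉ T) (g : Finset ι → ℝ) :
    Ex p (insert e T) (Dd e g) = Ex p T (fun R => g (insert e R)) - Ex p T g := by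
  rw [Ex_insert p he]
  have h1 : Ex p T (fun R => Dd e g (insert e R)) = Ex p T (fun R => g (insert e R)) - Ex p T g := by
    rw [← Ex_sub]
    apply Ex_congr
    intro R hR
    exact Dd_insert e g (fun h => he (hR h))
  have h2 : Ex p T (Dd e g) = Ex p T (fun R => g (insert e R)) - Ex p T g := by
    rw [← Ex_sub]
    apply Ex_congr
    intro R hR
    exact Dd_not_mem e g (fun h => he (hR h))
  rw [h1, h2]; ring

/-- Russo's formula in polynomial form. -/
theorem hasDerivAt_Ex (p : ℝ) (T : Finset ι) (g : Finset ι → ℝ) :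
    HasDerivAt (fun q => Ex q T g) (∑ e ∈ T, Ex p T (Dd e g)) p := by
  induction T using Finset.induction_on generalizing g with
  | empty =>
    simp only [Ex_empty, Finset.sum_empty]
    exact hasDerivAt_const p _
  | insert e T he ih =>
    have h1 := ih (fun R => g (insert e R))
    have h2 := ih g
    have key : HasDerivAt (fun q => q * Ex q T (fun R => g (insert e R)) + (1 - q) * Ex q T g)
        ((1 * Ex p T (fun R => g (insert e R)) + p * ∑ e' ∈ T, Ex p T (Dd e' (fun R => g (insert e R))))
          + ((0 - 1) * Ex p T g + (1 - p) * ∑ e' ∈ T, Ex p T (Dd e' g))) p := by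
      apply HasDerivAt.add
      · exact (hasDerivAt_id p).mul h1
      · exact ((hasDerivAt_const p (1:ℝ)).sub (hasDerivAt_id p)).mul h2
    have hfun : (fun q => Ex q (insert e T) g) =
        (fun q => q * Ex q T (fun R => g (insert e R)) + (1 - q) * Ex q T g) := by
      funext q
      exact Ex_insert q he g
    rw [hfun]
    convert key using 1
    rw [Finset.sum_insert he, Ex_Dd_insert p he]
    have hT : ∀ e' ∈ T, Ex p (insert e T) (Dd e' g) =
        p * Ex p T (Dd e' (fun R => g (insert e R))) + (1 - p) * Ex p T (Dd e' g) := by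
      intro e' he'
      rw [Ex_insert p he]
      congr 2
      apply Ex_congr
      intro R _
      have hne : e' ≠ e := fun h => he (h ▸ he')
      simp only [Dd]
      rw [Finset.insert_comm, Finset.erase_insert_of_ne hne.symm]
    rw [Finset.sum_congr rfl hT, Finset.sum_add_distrib, ← Finset.mul_sum, ← Finset.mul_sum]
    ring

end Vale.Agent.Lib.P063Alt
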