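import Mathlib

/-!
# Hypergraph properties and threshold width.
-/

namespace Vale.Agent.Lib.P063Alt

/-- The `r`-subsets of `Fin n`: the possible edges of an `r`-uniform hypergraph on `n` vertices. -/
abbrev Edge (n r : ℕ) : Type := {s : Finset (Fin n) // s.card = r}

/-- The image of an edge under a permutation of the vertices. -/
def relabelEdge {n r : ℕ} (g : Equiv.Perm (Fin n)) (e : Edge n r) : Edge n r :=
  ⟨e.1.map g.toEmbedding, by rw [Finset.card_map]; exact e.2⟩

/-- The image of a hypergraph (a set of edges) under a permutation of the vertices. -/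
def relabel {n r : ℕ} (g : Equiv.Perm (Fin n)) (x : Finset (Edge n r)) : Finset (Edge n r) :=
  x.image (relabelEdge g)

/-- A family of hypergraphs is a hypergraph property if it is invariant under all permutations
of the vertices. -/
def IsInvariant {n r : ℕ} (P : Set (Finset (Edge n r))) : Prop :=
  ∀ (g : Equiv.Perm (Fin n)) (x : Finset (Edge n r)), x ∈ P ↔ relabel g x ∈ P

/-- A family of hypergraphs is increasing if adding edges preserves membership. -/
def IsIncreasing {n r : ℕ} (P : Set (Finset (Edge n r))) : Prop :=
  ∀ x y : Finset (Edge n r), x ⊆ y → x ∈ P → y ∈ P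

/-- A family of hypergraphs is nontrivial if it is neither empty nor everything. -/
def IsNontrivial {n r : ℕ} (P : Set (Finset (Edge n r))) : Prop :=
  P ≠ ∅ ∧ P ≠ Set.univ

open Classical in
/-- `muP P p` is the probability that the random hypergraph, with each edge present independently
with probability `p`, lies in `P`. -/
noncomputable def muP {n r : ℕ} (P : Set (Finset (Edge n r))) (p : ℝ) : ℝ :=
  ∑ x : Finset (Edge n r), if x ∈ P then ∏ e : Edge n r, (if e ∈ x then p else 1 - p) else 0

/-- `threshold P a` is the infimum of the `p` in `[0,1]` with `muP P p ≥ a`. -/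
noncomputable def threshold {n r : ℕ} (P : Set (Finset (Edge n r))) (a : ℝ) : ℝ :=
  sInf {p : ℝ | p ∈ Set.Icc (0 : ℝ) 1 ∧ a ≤ muP P p}

/-- The threshold width `p_{1-ε} - p_ε`. -/
noncomputable def width {n r : ℕ} (P : Set (Finset (Edge n r))) (ε : ℝ) : ℝ :=
  threshold P (1 - ε) - threshold P ε

end Vale.Agent.Lib.P063Alt
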