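import Vale.Agent.Lib.P063Alt.Cube

/-!
# Characters, Parseval on an arbitrary coordinate set, and the derivative identity.
-/

namespace Vale.Agent.Lib.P063Alt

open Finset

variable {ι : Type*} [DecidableEq ι]

/-- The standard deviation of one coordinate. -/
noncomputable def sdv (p : ℝ) : ℝ := Real.sqrt (p * (1 - p))

/-- The normalized character of the coordinate `e`. -/
noncomputable def chi (p : ℝ) (e : ι) (x : Finset ι) : ℝ :=
  ((if e ∈ x then 1 else 0) - p) / sdv p

/-- The product character. -/
noncomputable def chiS (p : ℝ) (S x : Finset ι) : ℝ := ∏ e ∈ S, chi p e x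

theorem sdv_pos {p : ℝ} (h0 : 0 < p) (h1 : p < 1) : 0 < sdv p :=
  Real.sqrt_pos.mpr (mul_pos h0 (by linarith))

theorem sdv_sq {p : ℝ} (h0 : 0 < p) (h1 : p < 1) : sdv p ^ 2 = p * (1 - p) :=
  Real.sq_sqrt (mul_nonneg h0.le (by linarith))

theorem chiS_empty (p : ℝ) (x : Finset ι) : chiS p ∅ x = 1 := by simp [chiS]

theorem chiS_insert (p : ℝ) {e : ι} {S : Finset ι} (he : e ∉ S) (x : Finset ι) :
    chiS p (insert e S) x = chi p e x * chiS p S x := by
  simp [chiS, Finset.prod_insert he]

theorem chiS_congr (p : ℝ) (S : Finset ι) {x y : Finset ι} (h : ∀ e ∈ S, (e ∈ x ↔ e ∈ y)) :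
    chiS p S x = chiS p S y := by
  unfold chiS chi
  apply Finset.prod_congr rfl
  intro e he
  simp [h e he]

theorem chiS_union (p : ℝ) {S S' : Finset ι} (hd : Disjoint S S') (x : Finset ι) :
    chiS p (S ∪ S') x = chiS p S x * chiS p S' x := by
  simp [chiS, Finset.prod_union hd]

theorem chiS_insert_eq (p : ℝ) {e : ι} {S : Finset ι} (he : e ∉ S) (x : Finset ι) :
    chiS p S (insert e x) = chiS p S x := by
  apply chiS_congr
  intro e' he'
  have : e' ≠ e := fun h => he (h ▸ he')
  simp [this]

theorem chi_mem (p : ℝ) {e : ι} {x : Finset ι} (he : e ∈ x) : chi p e x = (1 - p) / sdv p := by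
  simp [chi, he]

theorem chi_not_mem (p : ℝ) {e : ι} {x : Finset ι} (he : e ∉ x) : chi p e x = - p / sdv p := by
  simp [chi, he]

/-- One-step recursion for coefficients with a character not involving the new coordinate. -/
theorem fc_step0 (p : ℝ) {e : ι} {T S : Finset ι} (he : e ∉ T) (heS : e ∉ S) (G : Finset ι → ℝ) :
    Ex p (insert e T) (fun x => G x * chiS p S x) =
      p * Ex p T (fun x => G (insert e x) * chiS p S x) + (1 - p) * Ex p T (fun x => G x * chiS p S x) := by
  rw [Ex_insert p he]
  congr 2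
  apply Ex_congr
  intro R _
  rw [chiS_insert_eq p heS]

/-- One-step recursion for coefficients with a character involving the new coordinate. -/
theorem fc_step1 {p : ℝ} (h0 : 0 < p) (h1 : p < 1) {e : ι} {T S : Finset ι} (he : e ∉ T) (heS : e ∉ S)
    (G : Finset ι → ℝ) :
    Ex p (insert e T) (fun x => G x * chiS p (insert e S) x) =
      sdv p * (Ex p T (fun x => G (insert e x) * chiS p S x) - Ex p T (fun x => G x * chiS p S x)) := by
  rw [Ex_insert p he]
  have hs := sdv_pos h0 h1
  have hs2 := sdv_sq h0 h1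
  have e1 : Ex p T (fun x => G (insert e x) * chiS p (insert e S) (insert e x)) =
      ((1 - p) / sdv p) * Ex p T (fun x => G (insert e x) * chiS p S x) := by
    rw [← Ex_const_mul]
    apply Ex_congr
    intro R _
    rw [chiS_insert p heS, chi_mem p (Finset.mem_insert_self e R), chiS_insert_eq p heS]
    ring
  have e0 : Ex p T (fun x => G x * chiS p (insert e S) x) =
      (- p / sdv p) * Ex p T (fun x => G x * chiS p S x) := by
    rw [← Ex_const_mul]
    apply Ex_congr
    intro R hR
    rw [chiS_insert p heS, chi_not_mem p (fun h => he (hR h))]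
    ring
  rw [e1, e0]
  field_simp
  rw [hs2]
  ring

/-- Parseval on an arbitrary coordinate set. -/
theorem parseval {p : ℝ} (h0 : 0 < p) (h1 : p < 1) (T : Finset ι) (G : Finset ι → ℝ) :
    ∑ S ∈ T.powerset, (Ex p T (fun x => G x * chiS p S x)) ^ 2 = Ex p T (fun x => G x ^ 2) := by
  induction T using Finset.induction_on generalizing G with
  | empty => simp [Ex_empty, chiS_empty]
  | insert e T he ih =>
    rw [Finset.sum_powerset_insert he, ← Finset.sum_add_distrib]
    rw [Ex_insert p he, ← ih G, ← ih (fun x => G (insert e x)), Finset.mul_sum, Finset.mul_sum,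
      ← Finset.sum_add_distrib]
    apply Finset.sum_congr rfl
    intro S hS
    have heS : e ∉ S := fun h => he (Finset.mem_powerset.mp hS h)
    rw [fc_step0 p he heS, fc_step1 h0 h1 he heS, mul_pow, sdv_sq h0 h1]
    ring

/-- The derivative identity for coefficients. -/
theorem fc_insert {p : ℝ} (h0 : 0 < p) (h1 : p < 1) {e : ι} {T S : Finset ι} (heT : e ∈ T) (heS : e ∉ S)
    (G : Finset ι → ℝ) :
    Ex p T (fun x => G x * chiS p (insert e S) x) = sdv p * Ex p T (fun x => Dd e G x * chiS p S x) := by
  obtain ⟨T', he', rfl⟩ : ∃ T', e ∉ T' ∧ T = insert e T' :=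
    ⟨T.erase e, Finset.notMem_erase e T, (Finset.insert_erase heT).symm⟩
  rw [fc_step1 h0 h1 he' heS]
  congr 1
  rw [Ex_insert p he']
  have e1 : Ex p T' (fun x => Dd e G (insert e x) * chiS p S (insert e x)) =
      Ex p T' (fun x => G (insert e x) * chiS p S x) - Ex p T' (fun x => G x * chiS p S x) := by
    rw [← Ex_sub]
    apply Ex_congr
    intro R hR
    rw [Dd_insert e G (fun h => he' (hR h)), chiS_insert_eq p heS]
    ring
  have e0 : Ex p T' (fun x => Dd e G x * chiS p S x) =
      Ex p T' (fun x => G (insert e x) * chiS p S x) - Ex p T' (fun x => G x * chiS p S x) := by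
    rw [← Ex_sub]
    apply Ex_congr
    intro R hR
    rw [Dd_not_mem e G (fun h => he' (hR h))]
    ring
  rw [e1, e0]
  ring

end Vale.Agent.Lib.P063Alt
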