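import Vale.Agent.Lib.P063Alt.Cap
import Vale.Agent.Lib.P063Alt.Count

/-!
# The main differential inequality for hypergraph properties.
-/

namespace Vale.Agent.Lib.P063Alt

open Finset

section generic

variable {ι : Type*} [DecidableEq ι] [Fintype ι]

/-- The total weight `∑ |S| f̂(S)²` is bounded by the total influence, for monotone functions. -/
theorem card_weight_le {p : ℝ} (h0 : 0 < p) (h1 : p < 1) (f : Finset ι → ℝ)
    (hD0 : ∀ e x, 0 ≤ Dd e f x) (hD1 : ∀ e x, Dd e f x ≤ 1) :
    ∑ S : Finset ι, (S.card : ℝ) * (Ex p univ (fun x => f x * chiS p S x)) ^ 2 ≤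
      (p * (1 - p)) * ∑ e : ι, Ex p univ (Dd e f) := by
  set w : Finset ι → ℝ := fun S => (Ex p univ (fun x => f x * chiS p S x)) ^ 2 with hw
  have hσ : 0 < p * (1 - p) := mul_pos h0 (by linarith)
  have step1 : ∑ S : Finset ι, (S.card : ℝ) * w S =
      ∑ e : ι, ∑ S : Finset ι, if e ∈ S then w S else 0 := by
    rw [Finset.sum_comm]
    apply Finset.sum_congr rfl
    intro S _
    rw [Finset.sum_ite, Finset.sum_const_zero, add_zero, Finset.sum_const, nsmul_eq_mul]
    have : (univ.filter (fun e => e ∈ S)) = S := by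
      ext e
      simp
    rw [this]
  rw [step1, Finset.mul_sum]
  apply Finset.sum_le_sum
  intro e _
  set T : Finset ι := univ.erase e with hT
  have heT : e ∉ T := Finset.notMem_erase e univ
  have huniv : (univ : Finset ι) = insert e T := (Finset.insert_erase (Finset.mem_univ e)).symm
  have h2 : ∑ S : Finset ι, (if e ∈ S then w S else 0) = ∑ S ∈ T.powerset, w (insert e S) := by
    rw [← Finset.powerset_univ, huniv, Finset.sum_powerset_insert heT]
    have hz : ∑ S ∈ T.powerset, (if e ∈ S then w S else 0) = 0 := by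
      apply Finset.sum_eq_zero
      intro S hS
      have : e ∉ S := fun h => heT (Finset.mem_powerset.mp hS h)
      simp [this]
    rw [hz, zero_add]
    apply Finset.sum_congr rfl
    intro S _
    simp
  rw [h2]
  have h3 : ∀ S ∈ T.powerset, w (insert e S) =
      (p * (1 - p)) * (Ex p univ (fun x => Dd e f x * chiS p S x)) ^ 2 := by
    intro S hS
    have : e ∉ S := fun h => heT (Finset.mem_powerset.mp hS h)
    simp only [hw]
    rw [fc_insert h0 h1 (Finset.mem_univ e) this, mul_pow, sdv_sq h0 h1]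
  rw [Finset.sum_congr rfl h3, ← Finset.mul_sum]
  apply mul_le_mul_of_nonneg_left _ hσ.le
  calc ∑ S ∈ T.powerset, (Ex p univ (fun x => Dd e f x * chiS p S x)) ^ 2
      ≤ ∑ S ∈ (univ : Finset ι).powerset, (Ex p univ (fun x => Dd e f x * chiS p S x)) ^ 2 := by
        apply Finset.sum_le_sum_of_subset_of_nonneg
        · exact Finset.powerset_mono.mpr (Finset.subset_univ T)
        · intro S _ _
          positivity
    _ = Ex p univ (fun x => Dd e f x ^ 2) := parseval h0 h1 univ (Dd e f)
    _ ≤ Ex p univ (Dd e f) := by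
        apply Ex_mono h0.le h1.le
        intro R _
        have := hD0 e R
        have := hD1 e R
        nlinarith

end generic

variable {n r : ℕ}

/-- The class of sets of edges charged to the pair `(U, u)`. -/
def cls (d : ℕ) (U : Finset (Fin n)) (u : Fin n) : Finset (Finset (Edge n r)) :=
  ((AU U ∪ YU U u).powerset).filter
    (fun S => 1 ≤ (S ∩ YU U u).card ∧ (S ∩ YU U u).card ≤ d)

/-- A hypergraph meeting `U` only in a vertex of low positive degree lies in the class. -/
theorem mem_cls {d : ℕ} {S : Finset (Edge n r)} {U : Finset (Fin n)} {x : Fin n}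
    (hxV : x ∈ verts S) (hdeg : vdeg S x ≤ d) (hU : verts S ∩ U = {x}) :
    S ∈ (cls d U x : Finset (Finset (Edge n r))) := by
  have hxU : x ∈ U := by
    have : x ∈ verts S ∩ U := by rw [hU]; simp
    exact (Finset.mem_inter.mp this).2
  have hsub : ∀ e ∈ S, e.1 ∩ U ⊆ {x} := by
    intro e he
    rw [← hU]
    exact Finset.inter_subset_inter_right (subset_verts he)
  have hinter : S ∩ YU U x = S.filter (fun e => x ∈ e.1) := by
    ext e
    simp only [Finset.mem_inter, Finset.mem_filter, YU, Finset.mem_univ, true_and]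
    constructor
    · rintro ⟨h1, h2⟩
      have : x ∈ e.1 ∩ U := by rw [h2]; simp
      exact ⟨h1, (Finset.mem_inter.mp this).1⟩
    · rintro ⟨h1, h2⟩
      refine ⟨h1, ?_⟩
      apply Finset.Subset.antisymm (hsub e h1)
      intro y hy
      rw [Finset.mem_singleton] at hy
      subst hy
      exact Finset.mem_inter.mpr ⟨h2, hxU⟩
  apply Finset.mem_filter.mpr
  constructor
  · apply Finset.mem_powerset.mpr
    intro e he
    apply Finset.mem_union.mpr
    by_cases hcase : x ∈ e.1
    · right
      apply Finset.mem_filter.mpr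
      refine ⟨Finset.mem_univ _, ?_⟩
      apply Finset.Subset.antisymm (hsub e he)
      intro y hy
      rw [Finset.mem_singleton] at hy
      subst hy
      exact Finset.mem_inter.mpr ⟨hcase, hxU⟩
    · left
      apply Finset.mem_filter.mpr
      refine ⟨Finset.mem_univ _, ?_⟩
      rw [Finset.disjoint_left]
      intro y hy hyU
      have : y ∈ ({x} : Finset (Fin n)) := hsub e he (Finset.mem_inter.mpr ⟨hy, hyU⟩)
      rw [Finset.mem_singleton] at this
      subst this
      exact hcase hy
  · rw [hinter]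
    refine ⟨?_, hdeg⟩
    obtain ⟨e, he, hxe⟩ := mem_verts.mp hxV
    exact Finset.card_pos.mpr ⟨e, Finset.mem_filter.mpr ⟨he, hxe⟩⟩

/-- Each edge is charged by exactly `r * C(n - r, L - 1)` pairs `(U, u)`. -/
theorem count_pairs (e : Edge n r) {L : ℕ} (hL : 1 ≤ L) :
    ∑ U ∈ powersetCard L (univ : Finset (Fin n)), ∑ u ∈ U, (if e.1 ∩ U = {u} then (1 : ℝ) else 0) =
      (r : ℝ) * ((n - r).choose (L - 1) : ℝ) := by
  have h1 : ∀ U ∈ powersetCard L (univ : Finset (Fin n)),
      ∑ u ∈ U, (if e.1 ∩ U = {u} then (1 : ℝ) else 0) =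
        ∑ u ∈ e.1, (if e.1 ∩ U = {u} then (1 : ℝ) else 0) := by
    intro U _
    rw [← Finset.sum_filter, ← Finset.sum_filter]
    apply Finset.sum_congr _ (fun _ _ => rfl)
    ext u
    simp only [Finset.mem_filter]
    constructor
    · rintro ⟨_, h⟩
      have : u ∈ e.1 ∩ U := by rw [h]; simp
      exact ⟨(Finset.mem_inter.mp this).1, h⟩
    · rintro ⟨_, h⟩
      have : u ∈ e.1 ∩ U := by rw [h]; simp
      exact ⟨(Finset.mem_inter.mp this).2, h⟩
  rw [Finset.sum_congr rfl h1, Finset.sum_comm]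
  have h2 : ∀ u ∈ e.1, ∑ U ∈ powersetCard L (univ : Finset (Fin n)),
      (if e.1 ∩ U = {u} then (1 : ℝ) else 0) = ((n - r).choose (L - 1) : ℝ) := by
    intro u hu
    rw [← Finset.sum_filter, Finset.sum_const, nsmul_eq_mul, mul_one, count_exact hu hL, e.2]
  rw [Finset.sum_congr rfl h2, Finset.sum_const, nsmul_eq_mul, e.2]

/-- The number of pairs charging a sparse hypergraph is large. -/
theorem count_charges {d L : ℕ} (hr : 2 ≤ r) (hL : 1 ≤ L) {S : Finset (Edge n r)}
    (hS : S.Nonempty) (hlt : (r * S.card) ^ (r - 1) < (d + 1) ^ r) :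
    ((n - (d + 1) ^ 2).choose (L - 1) : ℝ) ≤
      ∑ U ∈ powersetCard L (univ : Finset (Fin n)), ∑ u ∈ U,
        (if S ∈ (cls d U u : Finset (Finset (Edge n r))) then (1 : ℝ) else 0) := by
  obtain ⟨⟨x, hxV, hdeg⟩, hcard⟩ := low_deg hS hr hlt
  have h1 : ((n - (d + 1) ^ 2).choose (L - 1) : ℝ) ≤ ((n - (verts S).card).choose (L - 1) : ℝ) := by
    exact_mod_cast Nat.choose_le_choose (L - 1) (by omega)
  refine h1.trans ?_
  rw [← count_exact hxV hL, Finset.card_filter]
  push_cast
  apply Finset.sum_le_sum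
  intro U _
  by_cases hU : verts S ∩ U = {x}
  · have hxU : x ∈ U := by
      have : x ∈ verts S ∩ U := by rw [hU]; simp
      exact (Finset.mem_inter.mp this).2
    have hmem := mem_cls hxV hdeg hU
    rw [if_pos hU]
    calc (1 : ℝ) = if S ∈ (cls d U x : Finset (Finset (Edge n r))) then (1 : ℝ) else 0 := by
          rw [if_pos hmem]
      _ ≤ _ := Finset.single_le_sum (f := fun u =>
            if S ∈ (cls d U u : Finset (Finset (Edge n r))) then (1 : ℝ) else 0)
            (fun u _ => by split_ifs <;> norm_num) hxU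
  · rw [if_neg hU]
    exact Finset.sum_nonneg (fun u _ => by split_ifs <;> norm_num)

/-- The Fourier mass of sparse hypergraphs, by double counting. -/
theorem mass_sparse {w : Finset (Edge n r) → ℝ} {δ : Edge n r → ℝ} {B : ℝ} {d L : ℕ}
    (hr : 2 ≤ r) (hL : 1 ≤ L) (hw : ∀ S, 0 ≤ w S) (hδ : ∀ e, 0 ≤ δ e) (hB : 0 ≤ B)
    (hLd : 2 * (d + 1) ^ 2 * (L - 1) ≤ n - r)
    (hclass : ∀ U ∈ powersetCard L (univ : Finset (Fin n)), ∀ u ∈ U,
      ∑ S ∈ (cls d U u : Finset (Finset (Edge n r))), w S ≤ B * ∑ e ∈ YU U u, δ e) :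
    ∑ S ∈ (univ : Finset (Finset (Edge n r))).filter
        (fun S => S.Nonempty ∧ (r * S.card) ^ (r - 1) < (d + 1) ^ r), w S ≤
      2 * r * B * ∑ e, δ e := by
  set Lw := (univ : Finset (Finset (Edge n r))).filter
        (fun S => S.Nonempty ∧ (r * S.card) ^ (r - 1) < (d + 1) ^ r) with hLw
  set c₀ : ℝ := ((n - (d + 1) ^ 2).choose (L - 1) : ℝ) with hc₀
  set 𝒰 := powersetCard L (univ : Finset (Fin n)) with h𝒰
  -- lower bound
  have hlow : c₀ * ∑ S ∈ Lw, w S ≤
      ∑ U ∈ 𝒰, ∑ u ∈ U, ∑ S ∈ (cls d U u : Finset (Finset (Edge n r))), w S := by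
    have h1 : ∀ U ∈ 𝒰, ∀ u ∈ U, ∑ S ∈ (cls d U u : Finset (Finset (Edge n r))), w S =
        ∑ S : Finset (Edge n r), (if S ∈ (cls d U u : Finset (Finset (Edge n r))) then (1 : ℝ) else 0) * w S := by
      intro U _ u _
      simp only [ite_mul, one_mul, zero_mul]
      rw [Finset.sum_ite_mem, Finset.univ_inter]
    have h2 : ∑ U ∈ 𝒰, ∑ u ∈ U, ∑ S ∈ (cls d U u : Finset (Finset (Edge n r))), w S =
        ∑ S : Finset (Edge n r), (∑ U ∈ 𝒰, ∑ u ∈ U,
          (if S ∈ (cls d U u : Finset (Finset (Edge n r))) then (1 : ℝ) else 0)) * w S := by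
      rw [Finset.sum_congr rfl (fun U hU => Finset.sum_congr rfl (h1 U hU))]
      simp_rw [Finset.sum_mul]
      rw [Finset.sum_congr rfl (fun U _ => Finset.sum_comm)]
      rw [Finset.sum_comm]
    rw [h2, Finset.mul_sum]
    calc ∑ S ∈ Lw, c₀ * w S
        ≤ ∑ S ∈ Lw, (∑ U ∈ 𝒰, ∑ u ∈ U,
          (if S ∈ (cls d U u : Finset (Finset (Edge n r))) then (1 : ℝ) else 0)) * w S := by
          apply Finset.sum_le_sum
          intro S hS
          have hS' := (Finset.mem_filter.mp hS).2
          exact mul_le_mul_of_nonneg_right (count_charges hr hL hS'.1 hS'.2) (hw S)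
      _ ≤ _ := by
          apply Finset.sum_le_sum_of_subset_of_nonneg (Finset.subset_univ _)
          intro S _ _
          apply mul_nonneg _ (hw S)
          exact Finset.sum_nonneg (fun U _ => Finset.sum_nonneg
            (fun u _ => by split_ifs <;> norm_num))
  -- upper bound
  have hup : ∑ U ∈ 𝒰, ∑ u ∈ U, ∑ S ∈ (cls d U u : Finset (Finset (Edge n r))), w S ≤
      B * (∑ e, δ e) * ((r : ℝ) * ((n - r).choose (L - 1) : ℝ)) := by
    calc _ ≤ ∑ U ∈ 𝒰, ∑ u ∈ U, B * ∑ e ∈ YU U u, δ e :=
          Finset.sum_le_sum (fun U hU => Finset.sum_le_sum (fun u hu => hclass U hU u hu))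
      _ = B * ∑ U ∈ 𝒰, ∑ u ∈ U, ∑ e, (if e.1 ∩ U = {u} then (1 : ℝ) else 0) * δ e := by
          rw [Finset.mul_sum]
          apply Finset.sum_congr rfl
          intro U _
          rw [Finset.mul_sum]
          apply Finset.sum_congr rfl
          intro u _
          congr 1
          unfold YU
          rw [Finset.sum_filter]
          apply Finset.sum_congr rfl
          intro e _
          split_ifs <;> simp
      _ = B * ∑ e, δ e * (∑ U ∈ 𝒰, ∑ u ∈ U, (if e.1 ∩ U = {u} then (1 : ℝ) else 0)) := by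
          congr 1
          simp_rw [Finset.mul_sum]
          rw [Finset.sum_congr rfl (fun U _ => Finset.sum_comm)]
          rw [Finset.sum_comm]
          apply Finset.sum_congr rfl
          intro e _
          apply Finset.sum_congr rfl
          intro U _
          apply Finset.sum_congr rfl
          intro u _
          ring
      _ = _ := by
          rw [Finset.sum_congr rfl (fun e _ => by rw [count_pairs e hL])]
          rw [← Finset.sum_mul]
          ring
  -- the ratio of binomial coefficients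
  set M := n - r with hM
  set j := (d + 1) ^ 2 with hj
  have hj1 : 1 ≤ j := Nat.one_le_pow _ _ (by omega)
  have hmono : (M - j).choose (L - 1) ≤ (n - j).choose (L - 1) :=
    Nat.choose_le_choose _ (by omega)
  have hratio : ((n - r).choose (L - 1) : ℝ) ≤ 2 * c₀ := by
    have := choose_ratio M j (L - 1) hLd
    have h2 : M.choose (L - 1) ≤ 2 * (n - j).choose (L - 1) := by omega
    rw [hc₀]
    exact_mod_cast h2
  have hc₀pos : 0 < c₀ := by
    have := choose_pos_of M j (L - 1) hLd hj1
    rw [hc₀]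
    exact_mod_cast lt_of_lt_of_le this hmono
  have hsumδ : 0 ≤ ∑ e, δ e := Finset.sum_nonneg (fun e _ => hδ e)
  have hfinal : c₀ * ∑ S ∈ Lw, w S ≤ c₀ * (2 * r * B * ∑ e, δ e) := by
    calc _ ≤ _ := hlow
      _ ≤ _ := hup
      _ ≤ B * (∑ e, δ e) * ((r : ℝ) * (2 * c₀)) := by
          apply mul_le_mul_of_nonneg_left _ (by positivity)
          apply mul_le_mul_of_nonneg_left hratio (by positivity)
      _ = _ := by ring
  exact le_of_mul_le_mul_left hfinal hc₀pos

/-- The main inequality, for arbitrary admissible parameters. -/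
theorem star (hr : 2 ≤ r) (hrn : r ≤ n) {P : Set (Finset (Edge n r))}
    (hinv : IsInvariant P) (hinc : IsIncreasing P) {p : ℝ} (h0 : 0 < p) (h1 : p < 1)
    {d L : ℕ} (hd : 1 ≤ d) (hL : 1 ≤ L) {t K : ℝ} (ht : 0 < t) (hK : 0 < K)
    (hcapt : 1 ≤ (L : ℝ) * (p * (1 - p)) * t ^ 4)
    (hLd : 2 * (d + 1) ^ 2 * (L - 1) ≤ n - r)
    (hKS : ∀ s : ℕ, 1 ≤ s → (d + 1) ^ r ≤ (r * s) ^ (r - 1) → K ≤ s) :
    Ex p univ (fP P) * (1 - Ex p univ (fP P)) ≤
      (2 * r * lam p ^ (d - 1) * t + 1 / K) * (p * (1 - p)) *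
        ∑ e : Edge n r, Ex p univ (Dd e (fP P)) := by
  set f := fP P with hf
  set μ := Ex p univ f with hμ
  set w : Finset (Edge n r) → ℝ := fun S => (Ex p univ (fun x => f x * chiS p S x)) ^ 2 with hw
  set δ : Edge n r → ℝ := fun e => Ex p univ (Dd e f) with hδ
  have hw0 : ∀ S, 0 ≤ w S := fun S => sq_nonneg _
  have hD0 : ∀ e x, 0 ≤ Dd e f x := fun e x => Dd_nonneg hinc e x
  have hD1 : ∀ e x, Dd e f x ≤ 1 := fun e x => Dd_le_one P e x
  have hδ0 : ∀ e, 0 ≤ δ e := fun e => Ex_nonneg h0.le h1.le _ (fun R _ => hD0 e R)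
  have hσ : 0 < p * (1 - p) := mul_pos h0 (by linarith)
  have hlam := lam_pos h0 h1
  set B := (p * (1 - p)) * lam p ^ (d - 1) * t with hB
  have hB0 : 0 ≤ B := by positivity
  set I := ∑ e : Edge n r, δ e with hI
  have hI0 : 0 ≤ I := Finset.sum_nonneg (fun e _ => hδ0 e)
  -- the class bound for each pair
  have hclass : ∀ U ∈ powersetCard L (univ : Finset (Fin n)), ∀ u ∈ U,
      ∑ S ∈ (cls d U u : Finset (Finset (Edge n r))), w S ≤ B * ∑ e ∈ YU U u, δ e := by
    intro U hU u hu
    have hcard : U.card = L := (Finset.mem_powersetCard.mp hU).2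
    apply class_bound h0 h1 f (AU_YU_disjoint U u) d ht.le (fun e _ x => hD0 e x)
      (fun e _ x => hD1 e x)
    intro e he a ha
    apply cap_bound hinv h0 h1 hu he ha ht.le
    rw [hcard]
    exact hcapt
  have hmass := mass_sparse hr hL hw0 hδ0 hB0 hLd hclass
  -- Parseval
  have hpars : ∑ S : Finset (Edge n r), w S = μ := by
    have := parseval h0 h1 (univ : Finset (Edge n r)) f
    rw [Finset.powerset_univ] at this
    rw [this]
    apply Ex_congr
    intro R _
    exact fP_sq P R
  have hempty : w ∅ = μ ^ 2 := by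
    simp only [hw, chiS_empty, mul_one]
    rfl
  have hsplit : μ * (1 - μ) = ∑ S ∈ (univ : Finset (Finset (Edge n r))).erase ∅, w S := by
    have := Finset.add_sum_erase (univ : Finset (Finset (Edge n r))) w (Finset.mem_univ ∅)
    rw [hpars, hempty] at this
    linarith
  have hcw := card_weight_le h0 h1 f hD0 hD1
  have hcw0 : ∀ S : Finset (Edge n r), 0 ≤ (S.card : ℝ) * w S :=
    fun S => mul_nonneg (by positivity) (hw0 S)
  set Lw := (univ : Finset (Finset (Edge n r))).filter
        (fun S => S.Nonempty ∧ (r * S.card) ^ (r - 1) < (d + 1) ^ r) with hLw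
  have hterm : ∀ S ∈ (univ : Finset (Finset (Edge n r))).erase ∅,
      w S ≤ (if S ∈ Lw then w S else 0) + (1 / K) * ((S.card : ℝ) * w S) := by
    intro S hS
    have hne : S.Nonempty := Finset.nonempty_iff_ne_empty.mpr (Finset.ne_of_mem_erase hS)
    by_cases hSL : S ∈ Lw
    · rw [if_pos hSL]
      have : 0 ≤ (1 / K) * ((S.card : ℝ) * w S) := mul_nonneg (by positivity) (hcw0 S)
      linarith
    · rw [if_neg hSL, zero_add]
      have hge : (d + 1) ^ r ≤ (r * S.card) ^ (r - 1) := by
        by_contra hc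
        exact hSL (Finset.mem_filter.mpr ⟨Finset.mem_univ _, hne, by omega⟩)
      have hKS' := hKS S.card (Finset.card_pos.mpr hne) hge
      have h1K : 1 ≤ (1 / K) * (S.card : ℝ) := by
        rw [div_mul_eq_mul_div, one_mul, le_div_iff₀ hK]
        linarith
      calc w S = 1 * w S := by ring
        _ ≤ ((1 / K) * (S.card : ℝ)) * w S := mul_le_mul_of_nonneg_right h1K (hw0 S)
        _ = _ := by ring
  rw [hsplit]
  calc ∑ S ∈ (univ : Finset (Finset (Edge n r))).erase ∅, w S
      ≤ ∑ S ∈ (univ : Finset (Finset (Edge n r))).erase ∅,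
          ((if S ∈ Lw then w S else 0) + (1 / K) * ((S.card : ℝ) * w S)) :=
        Finset.sum_le_sum hterm
    _ ≤ ∑ S : Finset (Edge n r), ((if S ∈ Lw then w S else 0) + (1 / K) * ((S.card : ℝ) * w S)) := by
        apply Finset.sum_le_sum_of_subset_of_nonneg (Finset.subset_univ _)
        intro S _ _
        apply add_nonneg
        · split_ifs
          · exact hw0 S
          · exact le_rfl
        · exact mul_nonneg (by positivity) (hcw0 S)
    _ = ∑ S ∈ Lw, w S + (1 / K) * ∑ S : Finset (Edge n r), (S.card : ℝ) * w S := by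
        have e1 : ∑ S : Finset (Edge n r), (if S ∈ Lw then w S else 0) = ∑ S ∈ Lw, w S := by
          rw [Finset.sum_ite_mem, Finset.univ_inter]
        rw [Finset.sum_add_distrib, ← Finset.mul_sum, e1]
    _ ≤ 2 * r * B * I + (1 / K) * ((p * (1 - p)) * I) := by
        apply add_le_add hmass
        exact mul_le_mul_of_nonneg_left hcw (by positivity)
    _ = _ := by rw [hB]; ring

end Vale.Agent.Lib.P063Alt
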