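import Vale.Agent.Lib.P063Alt.Star

/-!
# From the differential inequality to the threshold width.
-/

namespace Vale.Agent.Lib.P063Alt

open Finset

/-- An abstract sharp threshold lemma. -/
theorem abstract_width {μ I : ℝ → ℝ} (hder : ∀ p, HasDerivAt μ (I p) p)
    (hI0 : ∀ p, p ∈ Set.Icc (0:ℝ) 1 → 0 ≤ I p) (hμ0 : μ 0 = 0) (hμ1 : μ 1 = 1)
    {ν c ε : ℝ} (hν0 : 0 < ν) (hν1 : ν ≤ 1 / 2) (hc : 0 < c)
    (hdiff : ∀ p, ν ≤ p → p ≤ 1 - ν → c * (μ p * (1 - μ p)) ≤ I p)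
    (hε0 : 0 < ε) (hε1 : ε < 1 / 2) :
    sInf {p : ℝ | p ∈ Set.Icc (0:ℝ) 1 ∧ 1 - ε ≤ μ p} - sInf {p : ℝ | p ∈ Set.Icc (0:ℝ) 1 ∧ ε ≤ μ p}
      ≤ 2 * ν + 1 / (c * (ε * (1 - ε))) := by
  have hcont : Continuous μ := continuous_iff_continuousAt.mpr (fun p => (hder p).continuousAt)
  have hmono : MonotoneOn μ (Set.Icc (0:ℝ) 1) := by
    apply monotoneOn_of_deriv_nonneg (convex_Icc 0 1) hcont.continuousOn
    · exact fun x _ => (hder x).differentiableAt.differentiableWithinAt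
    · intro x hx
      rw [(hder x).deriv]
      exact hI0 x (interior_subset hx)
  set S1 := {p : ℝ | p ∈ Set.Icc (0:ℝ) 1 ∧ ε ≤ μ p} with hS1
  set S2 := {p : ℝ | p ∈ Set.Icc (0:ℝ) 1 ∧ 1 - ε ≤ μ p} with hS2
  have h1S1 : (1:ℝ) ∈ S1 := ⟨⟨zero_le_one, le_rfl⟩, by rw [hμ1]; linarith⟩
  have h1S2 : (1:ℝ) ∈ S2 := ⟨⟨zero_le_one, le_rfl⟩, by rw [hμ1]; linarith⟩
  have hb1 : BddBelow S1 := ⟨0, fun x hx => hx.1.1⟩
  have hb2 : BddBelow S2 := ⟨0, fun x hx => hx.1.1⟩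
  set q1 := sInf S1 with hq1
  set q2 := sInf S2 with hq2
  have hq10 : 0 ≤ q1 := le_csInf ⟨1, h1S1⟩ (fun x hx => hx.1.1)
  have hq20 : 0 ≤ q2 := le_csInf ⟨1, h1S2⟩ (fun x hx => hx.1.1)
  have hq11 : q1 ≤ 1 := csInf_le hb1 h1S1
  have hq21 : q2 ≤ 1 := csInf_le hb2 h1S2
  set A := max q1 ν with hA
  set B := min q2 (1 - ν) with hB
  have hq2B : q2 ≤ B + ν := by
    rw [hB]
    rcases le_total q2 (1 - ν) with h | h
    · rw [min_eq_left h]; linarith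
    · rw [min_eq_right h]; linarith
  have hq1A : A - ν ≤ q1 := by
    rw [hA]
    rcases le_total q1 ν with h | h
    · rw [max_eq_right h]; linarith
    · rw [max_eq_left h]; linarith
  have hpos : 0 < ε * (1 - ε) := mul_pos hε0 (by linarith)
  have hCpos : 0 < c * (ε * (1 - ε)) := mul_pos hc hpos
  have hBA : B - A ≤ 1 / (c * (ε * (1 - ε))) := by
    rcases le_or_gt B A with hle | hlt
    · have : 0 < 1 / (c * (ε * (1 - ε))) := by positivity
      linarith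
    · have hA0 : 0 ≤ A := le_trans hq10 (le_max_left _ _)
      have hA1 : A ≤ 1 := by linarith [min_le_right q2 (1 - ν)]
      have hB0 : 0 ≤ B := by linarith
      have hB1 : B ≤ 1 := by linarith [min_le_right q2 (1 - ν)]
      have hderiv : ∀ x ∈ interior (Set.Icc A B), c * (ε * (1 - ε)) ≤ deriv μ x := by
        intro x hx
        rw [interior_Icc] at hx
        rw [(hder x).deriv]
        have hxA : A < x := hx.1
        have hxB : x < B := hx.2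
        have hxq1 : q1 < x := lt_of_le_of_lt (le_max_left _ _) hxA
        have hxν : ν < x := lt_of_le_of_lt (le_max_right _ _) hxA
        have hxq2 : x < q2 := lt_of_lt_of_le hxB (min_le_left _ _)
        have hxν' : x < 1 - ν := lt_of_lt_of_le hxB (min_le_right _ _)
        have hx0 : 0 ≤ x := by linarith
        have hx1 : x ≤ 1 := by linarith
        obtain ⟨y, hyS, hyx⟩ := exists_lt_of_csInf_lt ⟨1, h1S1⟩ hxq1
        have hge : ε ≤ μ x := hyS.2.trans (hmono hyS.1 ⟨hx0, hx1⟩ hyx.le)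
        have hlt' : μ x < 1 - ε := by
          by_contra hcon
          have : x ∈ S2 := ⟨⟨hx0, hx1⟩, not_lt.mp hcon⟩
          have := csInf_le hb2 this
          linarith
        have hprod : ε * (1 - ε) ≤ μ x * (1 - μ x) := by
          nlinarith
        calc c * (ε * (1 - ε)) ≤ c * (μ x * (1 - μ x)) := mul_le_mul_of_nonneg_left hprod hc.le
          _ ≤ I x := hdiff x hxν.le hxν'.le
      have hdiffon : DifferentiableOn ℝ μ (interior (Set.Icc A B)) :=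
        fun x _ => (hder x).differentiableAt.differentiableWithinAt
      have hmvt := Convex.mul_sub_le_image_sub_of_le_deriv (convex_Icc A B) hcont.continuousOn
        hdiffon hderiv A (Set.left_mem_Icc.mpr hlt.le) B (Set.right_mem_Icc.mpr hlt.le) hlt.le
      have hμB : μ B ≤ 1 := by
        have := hmono ⟨hB0, hB1⟩ ⟨zero_le_one, le_rfl⟩ hB1
        rwa [hμ1] at this
      have hμA : 0 ≤ μ A := by
        have := hmono ⟨le_rfl, zero_le_one⟩ ⟨hA0, hA1⟩ hA0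
        rwa [hμ0] at this
      rw [le_div_iff₀ hCpos]
      nlinarith
  linarith

/-- The conversion of the combinatorial sparsity condition to a real power. -/
theorem rpow_of_sparse {r s : ℕ} (hr : 2 ≤ r) {D : ℝ} (hD : 1 ≤ D)
    (h : D ^ r ≤ ((r : ℝ) * s) ^ (r - 1)) :
    D ^ ((r : ℝ) / ((r : ℝ) - 1)) ≤ (r : ℝ) * s := by
  have hr1 : ((r - 1 : ℕ) : ℝ) = (r : ℝ) - 1 := by
    rw [Nat.cast_sub (by omega)]; simp
  have hne : r - 1 ≠ 0 := by omega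
  have hD0 : 0 ≤ D := by linarith
  have hx0 : (0:ℝ) ≤ (r : ℝ) * s := by positivity
  have h1 : D ^ ((r : ℝ) / ((r : ℝ) - 1)) = (D ^ r) ^ (((r - 1 : ℕ) : ℝ)⁻¹) := by
    rw [hr1, div_eq_mul_inv, Real.rpow_mul hD0, Real.rpow_natCast]
  rw [h1]
  have h2 : (((r : ℝ) * s) ^ (r - 1)) ^ (((r - 1 : ℕ) : ℝ)⁻¹) = (r : ℝ) * s :=
    Real.pow_rpow_inv_natCast hx0 hne
  calc (D ^ r) ^ (((r - 1 : ℕ) : ℝ)⁻¹) ≤ (((r : ℝ) * s) ^ (r - 1)) ^ (((r - 1 : ℕ) : ℝ)⁻¹) := by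
        apply Real.rpow_le_rpow (by positivity) h
        positivity
    _ = _ := h2

/-- Real-variable bookkeeping for the cap condition. -/
theorem cap_real {ℓ lamm Da σ : ℝ} (hℓ3 : 3 ≤ ℓ) (hexp : 256 * ℓ ^ 12 ≤ Real.exp (7 * ℓ / 8))
    (hlamm0 : 0 < lamm) (hlamm : lamm ≤ Real.exp (ℓ / 32)) (hDa0 : 0 < Da) (hDa : Da ≤ ℓ ^ 2)
    {Lr : ℝ} (hLr : Real.exp ℓ / (8 * ℓ ^ 2) ≤ Lr) (hσ : 1 / (2 * ℓ ^ 2) ≤ σ) :
    1 ≤ Lr * σ * (1 / (2 * lamm * Da)) ^ 4 := by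
  have hℓ0 : 0 < ℓ := by linarith
  have hE : Real.exp ℓ = Real.exp (7 * ℓ / 8) * Real.exp (ℓ / 8) := by
    rw [← Real.exp_add]; congr 1; ring
  have hE8 : Real.exp (ℓ / 8) = Real.exp (ℓ / 32) ^ 4 := by
    rw [← Real.exp_nat_mul]; congr 1; push_cast; ring
  have hEpos : 0 < Real.exp (ℓ / 8) := Real.exp_pos _
  have hprod0 : 0 < 2 * lamm * Da := by positivity
  have h1 : (2 * lamm * Da) ^ 4 ≤ 16 * Real.exp (ℓ / 8) * ℓ ^ 8 := by
    have h2 : 2 * lamm * Da ≤ 2 * Real.exp (ℓ / 32) * ℓ ^ 2 := by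
      apply mul_le_mul _ hDa hDa0.le (by positivity)
      linarith
    calc (2 * lamm * Da) ^ 4 ≤ (2 * Real.exp (ℓ / 32) * ℓ ^ 2) ^ 4 :=
          pow_le_pow_left₀ hprod0.le h2 4
      _ = 16 * Real.exp (ℓ / 8) * ℓ ^ 8 := by rw [hE8]; ring
  have h3 : 16 * Real.exp (ℓ / 8) * ℓ ^ 8 ≤ Real.exp ℓ / (8 * ℓ ^ 2) * (1 / (2 * ℓ ^ 2)) := by
    have : Real.exp ℓ / (8 * ℓ ^ 2) * (1 / (2 * ℓ ^ 2)) = Real.exp ℓ / (16 * ℓ ^ 4) := by
      field_simp; ring
    rw [this, le_div_iff₀ (by positivity), hE]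
    have h4 : 16 * Real.exp (ℓ / 8) * ℓ ^ 8 * (16 * ℓ ^ 4) = (256 * ℓ ^ 12) * Real.exp (ℓ / 8) := by
      ring
    rw [h4]
    exact mul_le_mul_of_nonneg_right hexp hEpos.le
  have h5 : Real.exp ℓ / (8 * ℓ ^ 2) * (1 / (2 * ℓ ^ 2)) ≤ Lr * σ := by
    apply mul_le_mul hLr hσ (by positivity)
    exact le_trans (by positivity) hLr
  have h6 : (2 * lamm * Da) ^ 4 ≤ Lr * σ := h1.trans (h3.trans h5)
  have h7 : (1 / (2 * lamm * Da)) ^ 4 = 1 / (2 * lamm * Da) ^ 4 := by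
    rw [div_pow, one_pow]
  rw [h7, mul_one_div, le_div_iff₀ (by positivity), one_mul]
  exact h6

/-- The differential inequality with explicit constants. -/
theorem param_core {n r : ℕ} (hr : 2 ≤ r) (hn : 2 * r ≤ n) {P : Set (Finset (Edge n r))}
    (hinv : IsInvariant P) (hinc : IsIncreasing P) {p : ℝ} (h0 : 0 < p) (h1 : p < 1)
    {ℓ : ℝ} (hℓdef : ℓ = Real.log n) (hℓ3 : 3 ≤ ℓ) (hexp : 256 * ℓ ^ 12 ≤ Real.exp (7 * ℓ / 8))
    (hσ : 1 / (2 * ℓ ^ 2) ≤ p * (1 - p)) :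
    ℓ ^ ((r : ℝ) / ((r : ℝ) - 1)) * (Ex p univ (fP P) * (1 - Ex p univ (fP P))) ≤
      8192 * r * ∑ e : Edge n r, Ex p univ (Dd e (fP P)) := by
  have hℓ0 : 0 < ℓ := by linarith
  have hn0 : (0 : ℝ) < n := by
    have : 0 < n := by omega
    exact_mod_cast this
  have hnexp : Real.exp ℓ = n := by rw [hℓdef, Real.exp_log hn0]
  have hσ0 : 0 < p * (1 - p) := mul_pos h0 (by linarith)
  have hr1 : (0 : ℝ) < (r : ℝ) - 1 := by
    have : (2 : ℝ) ≤ r := by exact_mod_cast hr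
    linarith
  have hr0 : (0 : ℝ) < r := by linarith
  have hlam4 := four_le_lam h0 h1
  have hlam0 := lam_pos h0 h1
  set Λ := Real.log (lam p) with hΛ
  have hΛ1 : 1 ≤ Λ := by
    rw [hΛ, Real.le_log_iff_exp_le hlam0]
    have := Real.exp_one_lt_d9
    linarith
  have hΛle : Λ ≤ lam p := Real.log_le_self hlam0.le
  have hΛσ : Λ ^ 2 * (p * (1 - p)) ≤ 4 := by
    have h2 : Λ ^ 2 ≤ lam p ^ 2 := pow_le_pow_left₀ (by linarith) hΛle 2
    have h3 : lam p ^ 2 * (p * (1 - p)) = 4 := by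
      rw [lam_sq h0 h1]; exact div_mul_cancel₀ _ hσ0.ne'
    calc Λ ^ 2 * (p * (1 - p)) ≤ lam p ^ 2 * (p * (1 - p)) :=
          mul_le_mul_of_nonneg_right h2 hσ0.le
      _ = 4 := h3
  set a : ℝ := (r : ℝ) / ((r : ℝ) - 1) with ha
  have ha1 : 1 ≤ a := by
    rw [ha, le_div_iff₀ hr1]; linarith
  have ha2 : a ≤ 2 := by
    have : (2 : ℝ) ≤ r := by exact_mod_cast hr
    rw [ha, div_le_iff₀ hr1]; linarith
  set x : ℝ := ℓ / (32 * Λ) with hx
  have hΛ0 : 0 < Λ := by linarith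
  have hx0 : 0 ≤ x := by positivity
  set m : ℕ := ⌊x⌋₊ with hm
  have hm1 : (m : ℝ) ≤ x := Nat.floor_le hx0
  have hm2 : x < (m : ℝ) + 1 := Nat.lt_floor_add_one x
  set D : ℝ := (m : ℝ) + 2 with hD
  have hD1 : 1 ≤ D := by
    have : (0 : ℝ) ≤ m := by positivity
    linarith
  have hxle : x ≤ ℓ / 32 := by
    rw [hx]
    apply div_le_div_of_nonneg_left hℓ0.le (by norm_num)
    linarith
  have hDℓ : D ≤ ℓ := by linarith
  have hxD : x ≤ D := by linarith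
  set Da : ℝ := D ^ a with hDa
  have hDa1 : 1 ≤ Da := Real.one_le_rpow hD1 (by linarith)
  have hDa0 : 0 < Da := by linarith
  have hDa2 : Da ≤ ℓ ^ 2 := by
    calc Da ≤ D ^ (2 : ℝ) := Real.rpow_le_rpow_of_exponent_le hD1 ha2
      _ = D ^ 2 := by rw [Real.rpow_two]
      _ ≤ ℓ ^ 2 := pow_le_pow_left₀ (by linarith) hDℓ 2
  have hlamm : lam p ^ m ≤ Real.exp (ℓ / 32) := by
    have h2 : lam p ^ m = Real.exp ((m : ℝ) * Λ) := by
      rw [Real.exp_nat_mul, hΛ, Real.exp_log hlam0]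
    rw [h2]
    apply Real.exp_le_exp.mpr
    calc (m : ℝ) * Λ ≤ x * Λ := mul_le_mul_of_nonneg_right hm1 hΛ0.le
      _ = ℓ / 32 := by rw [hx]; field_simp
  have hlamm0 : 0 < lam p ^ m := by positivity
  set t : ℝ := 1 / (2 * lam p ^ m * Da) with ht
  have ht0 : 0 < t := by positivity
  set K : ℝ := Da / r with hK
  have hK0 : 0 < K := by positivity
  -- the parameter `L`
  set y : ℝ := (n : ℝ) / (4 * ℓ ^ 2) with hy
  have hℓ2 : 0 < ℓ ^ 2 := by positivity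
  have hexpℓ : 8 * ℓ ^ 2 ≤ Real.exp ℓ := by
    have h2 : Real.exp (7 * ℓ / 8) ≤ Real.exp ℓ := Real.exp_le_exp.mpr (by linarith)
    have h3 : ℓ ^ 2 ≤ ℓ ^ 12 := pow_le_pow_right₀ (by linarith) (by norm_num)
    nlinarith
  have hy2 : 2 ≤ y := by
    rw [hy, le_div_iff₀ (by positivity), ← hnexp]
    linarith
  set L : ℕ := ⌊y⌋₊ with hL
  have hL1 : 1 ≤ L := Nat.le_floor (by push_cast; linarith)
  have hLle : (L : ℝ) ≤ y := Nat.floor_le (by linarith)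
  have hLge : y / 2 ≤ (L : ℝ) := by
    have := Nat.lt_floor_add_one y
    linarith
  have hLge' : Real.exp ℓ / (8 * ℓ ^ 2) ≤ (L : ℝ) := by
    have : Real.exp ℓ / (8 * ℓ ^ 2) = y / 2 := by
      rw [hy, hnexp]; field_simp; ring
    rw [this]; exact hLge
  have hcapt : 1 ≤ (L : ℝ) * (p * (1 - p)) * t ^ 4 :=
    cap_real hℓ3 hexp hlamm0 hlamm hDa0 hDa2 hLge' hσ
  -- the size condition
  have hLd : 2 * ((m + 1) + 1) ^ 2 * (L - 1) ≤ n - r := by
    have hcast : ((2 * ((m + 1) + 1) ^ 2 * (L - 1) : ℕ) : ℝ) ≤ ((n - r : ℕ) : ℝ) := by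
      have h2 : ((n - r : ℕ) : ℝ) = (n : ℝ) - r := by
        rw [Nat.cast_sub (by omega)]
      rw [h2]
      have h3 : ((L - 1 : ℕ) : ℝ) ≤ y := by
        have : ((L - 1 : ℕ) : ℝ) ≤ (L : ℝ) := by exact_mod_cast Nat.sub_le L 1
        linarith
      have h4 : ((2 * ((m + 1) + 1) ^ 2 * (L - 1) : ℕ) : ℝ) = 2 * D ^ 2 * ((L - 1 : ℕ) : ℝ) := by
        push_cast
        rw [hD]
        ring
      rw [h4]
      have hD2 : D ^ 2 ≤ ℓ ^ 2 := pow_le_pow_left₀ (by linarith) hDℓ 2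
      have h5 : 2 * D ^ 2 * ((L - 1 : ℕ) : ℝ) ≤ 2 * ℓ ^ 2 * y := by
        apply mul_le_mul _ h3 (by positivity) (by positivity)
        linarith
      have h6 : 2 * ℓ ^ 2 * y = (n : ℝ) / 2 := by
        rw [hy]; field_simp; ring
      have h7 : (2 : ℝ) * r ≤ n := by exact_mod_cast hn
      linarith
    exact_mod_cast hcast
  have hKS : ∀ s : ℕ, 1 ≤ s → ((m + 1) + 1) ^ r ≤ (r * s) ^ (r - 1) → K ≤ s := by
    intro s _ hs
    have hcast : D ^ r ≤ ((r : ℝ) * s) ^ (r - 1) := by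
      have : (((m + 1) + 1) ^ r : ℝ) ≤ (((r * s) ^ (r - 1) : ℕ) : ℝ) := by exact_mod_cast hs
      push_cast at this
      have h3 : D = (m : ℝ) + 1 + 1 := by rw [hD]; ring
      rw [h3]
      exact this
    have := rpow_of_sparse hr hD1 hcast
    rw [hK, div_le_iff₀ hr0, mul_comm]
    exact this
  have hstar := star hr (by omega) hinv hinc h0 h1 (d := m + 1) (L := L) (by omega) hL1 ht0 hK0
    hcapt hLd hKS
  simp only [Nat.add_sub_cancel] at hstar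
  set V := Ex p univ (fP P) * (1 - Ex p univ (fP P)) with hV
  set I := ∑ e : Edge n r, Ex p univ (Dd e (fP P)) with hI
  have hμ0 : 0 ≤ Ex p univ (fP P) := Ex_nonneg h0.le h1.le _ (fun R _ => fP_nonneg P R)
  have hμ1 : Ex p univ (fP P) ≤ 1 := by
    have : Ex p univ (fP P) ≤ Ex p univ (fun _ => 1) :=
      Ex_mono h0.le h1.le _ (fun R _ => fP_le_one P R)
    rwa [Ex_one] at this
  have hV0 : 0 ≤ V := mul_nonneg hμ0 (by linarith)
  have hI0 : 0 ≤ I := Finset.sum_nonneg (fun e _ =>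
    Ex_nonneg h0.le h1.le _ (fun R _ => Dd_nonneg hinc e R))
  have hsimp : 2 * (r : ℝ) * lam p ^ m * t = 1 / K := by
    rw [ht, hK]; field_simp
  rw [hsimp] at hstar
  have hstar2 : Da * V ≤ 2 * r * ((p * (1 - p)) * I) := by
    have h2 : V ≤ (2 * (r : ℝ) / Da) * ((p * (1 - p)) * I) := by
      calc V ≤ (1 / K + 1 / K) * (p * (1 - p)) * I := hstar
        _ = _ := by rw [hK]; field_simp; ring
    calc Da * V ≤ Da * ((2 * (r : ℝ) / Da) * ((p * (1 - p)) * I)) :=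
          mul_le_mul_of_nonneg_left h2 hDa0.le
      _ = _ := by field_simp
  have hℓa : ℓ ^ a ≤ Da * (32 * Λ) ^ 2 := by
    have h2 : ℓ = x * (32 * Λ) := by rw [hx]; field_simp
    have h3 : ℓ ^ a = x ^ a * (32 * Λ) ^ a := by
      conv_lhs => rw [h2]
      exact Real.mul_rpow hx0 (by positivity)
    have h4 : x ^ a ≤ Da := Real.rpow_le_rpow hx0 hxD (by linarith)
    have h5 : (32 * Λ) ^ a ≤ (32 * Λ) ^ 2 := by
      calc (32 * Λ) ^ a ≤ (32 * Λ) ^ (2 : ℝ) :=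
            Real.rpow_le_rpow_of_exponent_le (by linarith) ha2
        _ = _ := by rw [Real.rpow_two]
    rw [h3]
    exact mul_le_mul h4 h5 (by positivity) hDa0.le
  calc ℓ ^ a * V ≤ (Da * (32 * Λ) ^ 2) * V := mul_le_mul_of_nonneg_right hℓa hV0
    _ = (32 * Λ) ^ 2 * (Da * V) := by ring
    _ ≤ (32 * Λ) ^ 2 * (2 * r * ((p * (1 - p)) * I)) := mul_le_mul_of_nonneg_left hstar2 (by positivity)
    _ = 2048 * r * (Λ ^ 2 * (p * (1 - p))) * I := by ring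
    _ ≤ 2048 * r * 4 * I := by
        apply mul_le_mul_of_nonneg_right _ hI0
        apply mul_le_mul_of_nonneg_left hΛσ (by positivity)
    _ = _ := by ring

/-- Largeness conditions on `n`. -/
theorem exists_n0 (r : ℕ) : ∃ n₀ : ℕ, ∀ n : ℕ, n₀ ≤ n →
    2 * r ≤ n ∧ 3 ≤ Real.log n ∧ 256 * (Real.log n) ^ 12 ≤ Real.exp (7 * Real.log n / 8) := by
  have h := (Real.tendsto_exp_div_pow_atTop 12).eventually_ge_atTop (256 * (8 / 7 : ℝ) ^ 12)
  obtain ⟨X, hX⟩ := Filter.eventually_atTop.mp h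
  set ℓ₀ : ℝ := max 3 (8 * X / 7) with hℓ₀
  refine ⟨max (2 * r + 1) ⌈Real.exp ℓ₀⌉₊, ?_⟩
  intro n hn
  have hn1 : 2 * r + 1 ≤ n := le_trans (le_max_left _ _) hn
  have hn2 : ⌈Real.exp ℓ₀⌉₊ ≤ n := le_trans (le_max_right _ _) hn
  have hnpos : (0 : ℝ) < n := by
    have : 0 < n := by omega
    exact_mod_cast this
  have hlog : ℓ₀ ≤ Real.log n := by
    rw [Real.le_log_iff_exp_le hnpos]
    exact (Nat.le_ceil _).trans (by exact_mod_cast hn2)
  have h3 : 3 ≤ Real.log n := (le_max_left _ _).trans hlog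
  have h4 : 8 * X / 7 ≤ Real.log n := (le_max_right _ _).trans hlog
  refine ⟨by omega, h3, ?_⟩
  set ℓ := Real.log n with hℓ
  have hx : X ≤ 7 * ℓ / 8 := by linarith
  have hxpos : 0 < 7 * ℓ / 8 := by linarith
  have h5 := hX _ hx
  rw [le_div_iff₀ (by positivity)] at h5
  calc 256 * ℓ ^ 12 = 256 * (8 / 7 : ℝ) ^ 12 * (7 * ℓ / 8) ^ 12 := by
        field_simp
    _ ≤ _ := h5

/-- Bound of a real power of a logarithm for bounded `n`. -/
theorem small_n_bound {a ℓ M : ℝ} (ha1 : 1 ≤ a) (ha2 : a ≤ 2) (hℓ0 : 0 < ℓ) (hℓM : ℓ ≤ M) :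
    ℓ ^ a ≤ 1 + M ^ 2 := by
  rcases le_or_gt ℓ 1 with h | h
  · have := Real.rpow_le_one hℓ0.le h (by linarith : 0 ≤ a)
    nlinarith [sq_nonneg M]
  · calc ℓ ^ a ≤ ℓ ^ (2 : ℝ) := Real.rpow_le_rpow_of_exponent_le h.le ha2
      _ = ℓ ^ 2 := by rw [Real.rpow_two]
      _ ≤ M ^ 2 := pow_le_pow_left₀ hℓ0.le hℓM 2
      _ ≤ 1 + M ^ 2 := by linarith

/-- The Friedgut-Kalai threshold width theorem. -/
theorem final (r : ℕ) (hr : 2 ≤ r) (ε : ℝ) (hε0 : 0 < ε) (hε1 : ε < 1 / 2) :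
    ∃ C : ℝ, 0 < C ∧ ∀ n : ℕ, r ≤ n → ∀ P : Set (Finset (Edge n r)),
      IsInvariant P → IsIncreasing P → IsNontrivial P →
        width P ε ≤ C * (Real.log n) ^ (-((r : ℝ) / ((r : ℝ) - 1))) := by
  obtain ⟨n₀, hn₀⟩ := exists_n0 r
  have hεε : 0 < ε * (1 - ε) := mul_pos hε0 (by linarith)
  have hr2 : (2 : ℝ) ≤ r := by exact_mod_cast hr
  have hr1 : (0 : ℝ) < (r : ℝ) - 1 := by linarith
  have hr0 : (0 : ℝ) < r := by linarith
  set a : ℝ := (r : ℝ) / ((r : ℝ) - 1) with ha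
  have ha1 : 1 ≤ a := by
    rw [ha, le_div_iff₀ hr1]; linarith
  have ha2 : a ≤ 2 := by
    rw [ha, div_le_iff₀ hr1]; linarith
  set C₁ : ℝ := 2 + 8192 * r / (ε * (1 - ε)) with hC₁
  set C₂ : ℝ := 1 + (Real.log n₀) ^ 2 with hC₂
  have hC₁0 : 0 < C₁ := by positivity
  have hC₂0 : 0 < C₂ := by positivity
  refine ⟨C₁ + C₂, by positivity, ?_⟩
  intro n hrn P hinv hinc hnt
  have hn2 : (2 : ℝ) ≤ n := by
    have : 2 ≤ n := by omega
    exact_mod_cast this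
  have hnpos : (0 : ℝ) < n := by linarith
  set ℓ := Real.log n with hℓ
  have hℓ0 : 0 < ℓ := Real.log_pos (by linarith)
  -- the function and its derivative
  set I : ℝ → ℝ := fun p => ∑ e : Edge n r, Ex p univ (Dd e (fP P)) with hI
  have hmu : muP P = fun q => Ex q univ (fP P) := by
    funext q
    exact muP_eq_Ex P q
  have hder : ∀ p, HasDerivAt (muP P) (I p) p := by
    intro p
    rw [hmu]
    exact hasDerivAt_Ex p univ (fP P)
  have hI0 : ∀ p, p ∈ Set.Icc (0:ℝ) 1 → 0 ≤ I p := by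
    intro p hp
    exact Finset.sum_nonneg (fun e _ => Ex_nonneg hp.1 hp.2 _ (fun R _ => Dd_nonneg hinc e R))
  have hempty : (∅ : Finset (Edge n r)) ∉ P := by
    intro h
    apply hnt.2
    ext y
    simp only [Set.mem_univ, iff_true]
    exact hinc ∅ y (Finset.empty_subset y) h
  have hunivP : (univ : Finset (Edge n r)) ∈ P := by
    obtain ⟨x, hx⟩ := Set.nonempty_iff_ne_empty.mpr hnt.1
    exact hinc x univ (Finset.subset_univ x) hx
  have hμ0 : muP P 0 = 0 := by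
    rw [muP_eq_Ex, Ex_zero]
    simp [fP, hempty]
  have hμ1 : muP P 1 = 1 := by
    rw [muP_eq_Ex, Ex_at_one]
    simp [fP, hunivP]
  have hmono : MonotoneOn (muP P) (Set.Icc (0:ℝ) 1) := by
    apply monotoneOn_of_deriv_nonneg (convex_Icc 0 1)
      (continuous_iff_continuousAt.mpr (fun p => (hder p).continuousAt)).continuousOn
    · exact fun x _ => (hder x).differentiableAt.differentiableWithinAt
    · intro x hx
      rw [(hder x).deriv]
      exact hI0 x (interior_subset hx)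
  have hνpos : 0 < ℓ ^ (-a) := Real.rpow_pos_of_pos hℓ0 _
  have hone : ℓ ^ a * ℓ ^ (-a) = 1 := by
    rw [← Real.rpow_add hℓ0]
    simp
  have hℓapos : 0 < ℓ ^ a := Real.rpow_pos_of_pos hℓ0 _
  unfold width threshold
  rcases lt_or_ge n n₀ with hlt | hge
  · -- bounded `n`: the width is at most one
    have h1S : (1 : ℝ) ∈ {p : ℝ | p ∈ Set.Icc (0:ℝ) 1 ∧ 1 - ε ≤ muP P p} :=
      ⟨⟨zero_le_one, le_rfl⟩, by rw [hμ1]; linarith⟩
    have h1S' : (1 : ℝ) ∈ {p : ℝ | p ∈ Set.Icc (0:ℝ) 1 ∧ ε ≤ muP P p} :=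
      ⟨⟨zero_le_one, le_rfl⟩, by rw [hμ1]; linarith⟩
    have hq2 : sInf {p : ℝ | p ∈ Set.Icc (0:ℝ) 1 ∧ 1 - ε ≤ muP P p} ≤ 1 :=
      csInf_le ⟨0, fun x hx => hx.1.1⟩ h1S
    have hq1 : 0 ≤ sInf {p : ℝ | p ∈ Set.Icc (0:ℝ) 1 ∧ ε ≤ muP P p} :=
      le_csInf ⟨1, h1S'⟩ (fun x hx => hx.1.1)
    have hlog : ℓ ≤ Real.log n₀ := by
      apply Real.log_le_log hnpos
      exact_mod_cast hlt.le
    have hsmall := small_n_bound ha1 ha2 hℓ0 hlog
    have h3 : 1 ≤ C₂ * ℓ ^ (-a) := by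
      calc 1 = ℓ ^ a * ℓ ^ (-a) := hone.symm
        _ ≤ C₂ * ℓ ^ (-a) := mul_le_mul_of_nonneg_right hsmall hνpos.le
    have h4 : 0 ≤ C₁ * ℓ ^ (-a) := by positivity
    rw [add_mul]
    linarith
  · -- large `n`
    obtain ⟨hn2r, hℓ3, hexp⟩ := hn₀ n hge
    have hν3 : ℓ ^ (-a) ≤ 1 / 3 := by
      calc ℓ ^ (-a) ≤ ℓ ^ (-1 : ℝ) :=
            Real.rpow_le_rpow_of_exponent_le (by linarith) (by linarith)
        _ = ℓ⁻¹ := Real.rpow_neg_one ℓ
        _ ≤ 1 / 3 := by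
            rw [inv_eq_one_div]
            exact one_div_le_one_div_of_le (by norm_num) hℓ3
    have hνℓ : 1 / ℓ ^ 2 ≤ ℓ ^ (-a) := by
      calc 1 / ℓ ^ 2 = ℓ ^ (-2 : ℝ) := by
            rw [Real.rpow_neg hℓ0.le, Real.rpow_two, one_div]
        _ ≤ ℓ ^ (-a) := Real.rpow_le_rpow_of_exponent_le (by linarith) (by linarith)
    set ν := ℓ ^ (-a) with hν
    set c : ℝ := ℓ ^ a / (8192 * r) with hc
    have hc0 : 0 < c := by positivity
    have hdiff : ∀ p, ν ≤ p → p ≤ 1 - ν → c * (muP P p * (1 - muP P p)) ≤ I p := by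
      intro p hp1 hp2
      have hp0 : 0 < p := by linarith
      have hp3 : p < 1 := by linarith
      have hσ : 1 / (2 * ℓ ^ 2) ≤ p * (1 - p) := by
        have h5 : ν / 2 ≤ p * (1 - p) := by nlinarith
        have h6 : 1 / (2 * ℓ ^ 2) = (1 / ℓ ^ 2) / 2 := by field_simp
        rw [h6]
        linarith
      have hcore := param_core hr hn2r hinv hinc hp0 hp3 hℓ.symm.symm hℓ3 hexp hσ
      rw [muP_eq_Ex]
      rw [hc, div_mul_eq_mul_div, div_le_iff₀ (by positivity)]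
      calc ℓ ^ a * (Ex p univ (fP P) * (1 - Ex p univ (fP P))) ≤ _ := hcore
        _ = _ := by rw [hI]; ring
    have hw := abstract_width hder hI0 hμ0 hμ1 hνpos (by linarith) hc0 hdiff hε0 hε1
    refine hw.trans ?_
    have hinv' : 1 / (c * (ε * (1 - ε))) = 8192 * r / (ε * (1 - ε)) * ν := by
      have h7 : 1 / ℓ ^ a = ν := by
        rw [hν, Real.rpow_neg hℓ0.le, one_div]
      rw [← h7, hc]
      field_simp
    rw [hinv', add_mul]
    have h8 : 0 ≤ C₂ * ν := by positivity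
    have h9 : C₁ * ν = 2 * ν + 8192 * r / (ε * (1 - ε)) * ν := by
      rw [hC₁]; ring
    linarith

end Vale.Agent.Lib.P063Alt
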